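import Vale.Agent.P298.H826.Wirt

/-!
P298, row P1 (helper826): hermitian metrics with semipositive curvature on a trivial bundle over
a plane domain, and the pointwise Bochner type inequality.
-/

open Complex ComplexConjugate MeasureTheory Filter Topology Metric Set
open scoped ContDiff Matrix

namespace Vale.Agent.P298.H826

noncomputable section

variable {n : ℕ}

/-- The sesquilinear expression `x* M y`. -/
def S (M : Matrix (Fin n) (Fin n) ℂ) (x y : Fin n → ℂ) : ℂ :=
  ∑ i, ∑ j, conj (x i) * M i j * y j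

theorem S_eq (M : Matrix (Fin n) (Fin n) ℂ) (x y : Fin n → ℂ) :
    S M x y = ∑ i, conj (x i) * (M *ᵥ y) i := by
  unfold S Matrix.mulVec dotProduct
  refine Finset.sum_congr rfl fun i _ => ?_
  rw [Finset.mul_sum]
  exact Finset.sum_congr rfl fun j _ => by ring

theorem S_add_left (M : Matrix (Fin n) (Fin n) ℂ) (x x' y : Fin n → ℂ) :
    S M (x + x') y = S M x y + S M x' y := by
  simp only [S, Pi.add_apply, map_add, add_mul, Finset.sum_add_distrib]

theorem S_add_right (M : Matrix (Fin n) (Fin n) ℂ) (x y y' : Fin n → ℂ) :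
    S M x (y + y') = S M x y + S M x y' := by
  simp only [S, Pi.add_apply, mul_add, Finset.sum_add_distrib]

theorem S_smul_right (M : Matrix (Fin n) (Fin n) ℂ) (c : ℂ) (x y : Fin n → ℂ) :
    S M x (c • y) = c * S M x y := by
  simp only [S, Pi.smul_apply, smul_eq_mul, Finset.mul_sum]
  exact Finset.sum_congr rfl fun i _ => Finset.sum_congr rfl fun j _ => by ring

theorem S_smul_left (M : Matrix (Fin n) (Fin n) ℂ) (c : ℂ) (x y : Fin n → ℂ) :
    S M (c • x) y = conj c * S M x y := by
  simp only [S, Pi.smul_apply, smul_eq_mul, Finset.mul_sum, map_mul]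
  exact Finset.sum_congr rfl fun i _ => Finset.sum_congr rfl fun j _ => by ring

theorem S_congr_right {M N : Matrix (Fin n) (Fin n) ℂ} {y y' : Fin n → ℂ}
    (h : M *ᵥ y = N *ᵥ y') (x : Fin n → ℂ) : S M x y = S N x y' := by
  rw [S_eq, S_eq, h]

theorem conj_S (M : Matrix (Fin n) (Fin n) ℂ) (x y : Fin n → ℂ) :
    conj (S M x y) = S Mᴴ y x := by
  simp only [S, map_sum, map_mul, conj_conj, Matrix.conjTranspose_apply, star_def]
  rw [Finset.sum_comm]
  exact Finset.sum_congr rfl fun i _ => Finset.sum_congr rfl fun j _ => by ring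

theorem re_S_swap (M : Matrix (Fin n) (Fin n) ℂ) (x y : Fin n → ℂ) :
    (S Mᴴ y x).re = (S M x y).re := by
  rw [← conj_S, conj_re]

/-- entrywise `∂` -/
def hz (h : ℂ → Matrix (Fin n) (Fin n) ℂ) (t : ℂ) : Matrix (Fin n) (Fin n) ℂ :=
  Matrix.of fun i j => dz (fun s => h s i j) t

/-- entrywise `∂̄` -/
def hzb (h : ℂ → Matrix (Fin n) (Fin n) ℂ) (t : ℂ) : Matrix (Fin n) (Fin n) ℂ :=
  Matrix.of fun i j => dzb (fun s => h s i j) t

/-- entrywise `∂∂̄` -/
def hzz (h : ℂ → Matrix (Fin n) (Fin n) ℂ) (t : ℂ) : Matrix (Fin n) (Fin n) ℂ :=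
  Matrix.of fun i j => dz (dzb (fun s => h s i j)) t

/-- A hermitian metric `h` on the trivial bundle of rank `n` over `Ω`, bounded below by `c`, with
semipositive curvature: `∂∂̄ h (v, v) ≤ ‖h⁻¹ ∂h v‖²` for constant `v`. -/
structure Met (h : ℂ → Matrix (Fin n) (Fin n) ℂ) (Ω : Set ℂ) (c : ℝ) : Prop where
  smooth : ∀ i j, ContDiffOn ℝ 2 (fun t => h t i j) Ω
  herm : ∀ t ∈ Ω, (h t).IsHermitian
  coer : ∀ t ∈ Ω, ∀ v, c * ∑ i, ‖v i‖ ^ 2 ≤ (S (h t) v v).re
  curv : ∀ t ∈ Ω, ∀ v p, h t *ᵥ p = hz h t *ᵥ v → (S (hzz h t) v v).re ≤ (S (h t) p p).re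

theorem dz_triple {f g k : ℂ → ℂ} {z : ℂ} (hf : ContDiffAt ℝ 2 f z) (hg : ContDiffAt ℝ 2 g z)
    (hk : ContDiffAt ℝ 2 k z) :
    dz (dzb fun s => f s * g s * k s) z =
      dz (dzb f) z * g z * k z + dzb f z * dz g z * k z + dzb f z * g z * dz k z +
      (dz f z * dzb g z * k z + f z * dz (dzb g) z * k z + f z * dzb g z * dz k z) +
      (dz f z * g z * dzb k z + f z * dz g z * dzb k z + f z * g z * dz (dzb k) z) := by
  have e : dzb (fun s => f s * g s * k s) =ᶠ[𝓝 z]
      fun s => dzb f s * g s * k s + f s * dzb g s * k s + f s * g s * dzb k s := by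
    filter_upwards [hf.eventually (by simp), hg.eventually (by simp), hk.eventually (by simp)] with s h1 h2 h3
    have d1 := h1.differentiableAt (n := 2) (by norm_num)
    have d2 := h2.differentiableAt (n := 2) (by norm_num)
    have d3 := h3.differentiableAt (n := 2) (by norm_num)
    rw [dzb_mul (d1.fun_mul d2) d3, dzb_mul d1 d2]
    ring
  have a1 := hf.differentiableAt (n := 2) (by norm_num)
  have a2 := hg.differentiableAt (n := 2) (by norm_num)
  have a3 := hk.differentiableAt (n := 2) (by norm_num)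
  have b1 : DifferentiableAt ℝ (dzb f) z :=
    (contDiffAt_dzb (m := 1) hf (by norm_num)).differentiableAt (by norm_num)
  have b2 : DifferentiableAt ℝ (dzb g) z :=
    (contDiffAt_dzb (m := 1) hg (by norm_num)).differentiableAt (by norm_num)
  have b3 : DifferentiableAt ℝ (dzb k) z :=
    (contDiffAt_dzb (m := 1) hk (by norm_num)).differentiableAt (by norm_num)
  rw [dz_congr e, dz_add (((b1.fun_mul a2).fun_mul a3).fun_add ((a1.fun_mul b2).fun_mul a3))
      ((a1.fun_mul a2).fun_mul b3),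
    dz_add ((b1.fun_mul a2).fun_mul a3) ((a1.fun_mul b2).fun_mul a3), dz_mul (b1.fun_mul a2) a3,
    dz_mul b1 a2, dz_mul (a1.fun_mul b2) a3, dz_mul a1 b2, dz_mul (a1.fun_mul a2) b3, dz_mul a1 a2]
  ring

theorem dzb_pair {f g k : ℂ → ℂ} {z : ℂ} (hf : ContDiffAt ℝ 2 f z) (hg : ContDiffAt ℝ 2 g z)
    (hk : ContDiffAt ℝ 2 k z) :
    dzb (fun s => f s * dz (fun r => g r * k r) s) z =
      dzb f z * g z * dz k z + dzb f z * dz g z * k z +
      (f z * dzb g z * dz k z + f z * g z * dz (dzb k) z + f z * dz (dzb g) z * k z +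
        f z * dz g z * dzb k z) := by
  have e : (fun s => f s * dz (fun r => g r * k r) s) =ᶠ[𝓝 z]
      fun s => f s * (dz g s * k s + g s * dz k s) := by
    filter_upwards [hg.eventually (by simp), hk.eventually (by simp)] with s h2 h3
    have d2 := h2.differentiableAt (n := 2) (by norm_num)
    have d3 := h3.differentiableAt (n := 2) (by norm_num)
    rw [dz_mul d2 d3]
  have a1 := hf.differentiableAt (n := 2) (by norm_num)
  have a2 := hg.differentiableAt (n := 2) (by norm_num)
  have a3 := hk.differentiableAt (n := 2) (by norm_num)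
  have b2 : DifferentiableAt ℝ (dz g) z :=
    (contDiffAt_dz (m := 1) hg (by norm_num)).differentiableAt (by norm_num)
  have b3 : DifferentiableAt ℝ (dz k) z :=
    (contDiffAt_dz (m := 1) hk (by norm_num)).differentiableAt (by norm_num)
  rw [dzb_congr e, dzb_mul a1 ((b2.fun_mul a3).fun_add (a2.fun_mul b3)),
    dzb_add (b2.fun_mul a3) (a2.fun_mul b3),
    dzb_mul b2 a3, dzb_mul a2 b3, dz_dzb_comm hg, dz_dzb_comm hk]
  ring

/-- The function `h(α, α)`. -/
def uu (h : ℂ → Matrix (Fin n) (Fin n) ℂ) (α : ℂ → Fin n → ℂ) (s : ℂ) : ℂ :=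
  S (h s) (α s) (α s)

/-- `q = ∂ (h α)` -/
def qq (h : ℂ → Matrix (Fin n) (Fin n) ℂ) (α : ℂ → Fin n → ℂ) (s : ℂ) : Fin n → ℂ :=
  fun i => dz (fun r => ∑ j, h r i j * α r j) s

/-- `w = ⟨D'α, α⟩ = α* ∂ (h α)`. -/
def ww (h : ℂ → Matrix (Fin n) (Fin n) ℂ) (α : ℂ → Fin n → ℂ) (s : ℂ) : ℂ :=
  ∑ i, conj (α s i) * qq h α s i

variable {h : ℂ → Matrix (Fin n) (Fin n) ℂ} {Ω : Set ℂ} {c : ℝ}

theorem contDiffAt_conj {f : ℂ → ℂ} {z : ℂ} {m : ℕ∞ω} (hf : ContDiffAt ℝ m f z) :
    ContDiffAt ℝ m (fun s => conj (f s)) z := by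
  have : (fun s => conj (f s)) = fun s => conjCLE (f s) := by
    funext s
    simp
  rw [this]
  exact conjCLE.contDiff.contDiffAt.comp z hf

theorem qq_eq {α : ℂ → Fin n → ℂ} {s : ℂ} (hh : ∀ i j, DifferentiableAt ℝ (fun t => h t i j) s)
    (hα : ∀ i, DifferentiableAt ℝ (fun t => α t i) s) :
    qq h α s = h s *ᵥ (fun i => dz (fun t => α t i) s) + hz h s *ᵥ α s := by
  funext i
  have h1 : ∀ j ∈ (Finset.univ : Finset (Fin n)),
      DifferentiableAt ℝ (fun r => h r i j * α r j) s := fun j _ => (hh i j).mul (hα j)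
  rw [qq, dz_sum _ h1]
  simp only [Pi.add_apply, Matrix.mulVec, dotProduct, hz, Matrix.of_apply]
  rw [← Finset.sum_add_distrib]
  refine Finset.sum_congr rfl fun j _ => ?_
  rw [dz_mul (hh i j) (hα j)]
  ring

/-- **The pointwise inequality.** -/
theorem pointwise (hΩ : IsOpen Ω) (H : Met h Ω c) (hc : 0 ≤ c) {α : ℂ → Fin n → ℂ} {s : ℂ} (hs : s ∈ Ω)
    (hα : ∀ i, ContDiffAt ℝ 2 (fun t => α t i) s) {P : Fin n → ℂ} (hP : h s *ᵥ P = qq h α s) :
    2 * (dzb (ww h α) s).re ≤ (dz (dzb (uu h α)) s).re + (S (h s) P P).re := by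
  have hh : ∀ i j, ContDiffAt ℝ 2 (fun t => h t i j) s := fun i j =>
    (H.smooth i j s hs).contDiffAt (hΩ.mem_nhds hs)
  set a : Fin n → ℂ := α s with ha
  set a1 : Fin n → ℂ := fun i => dz (fun t => α t i) s with ha1
  set a2 : Fin n → ℂ := fun i => dzb (fun t => α t i) s with ha2
  set a12 : Fin n → ℂ := fun i => dz (dzb (fun t => α t i)) s with ha12
  have hcα : ∀ i, ContDiffAt ℝ 2 (fun t => conj (α t i)) s := fun i => contDiffAt_conj (hα i)
  -- derivatives of the conjugate
  have c1 : ∀ i, dz (fun t => conj (α t i)) s = conj (a2 i) := fun i => dz_conj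
  have c2 : ∀ i, dzb (fun t => conj (α t i)) s = conj (a1 i) := fun i => dzb_conj
  have c12 : ∀ i, dz (dzb (fun t => conj (α t i))) s = conj (a12 i) := by
    intro i
    have e : dzb (fun t => conj (α t i)) = fun t => conj (dz (fun t => α t i) t) := by
      funext t
      exact dzb_conj
    rw [e, dz_conj, ha12, ← dz_dzb_comm (hα i)]
  -- expansion of `dz dzb u`
  have D2 : ∀ f : ℂ → ℂ, ContDiffAt ℝ 2 f s → ∀ᶠ r in 𝓝 s, DifferentiableAt ℝ f r := by
    intro f hf
    filter_upwards [hf.eventually (by simp)] with r hr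
    exact hr.differentiableAt (by norm_num)
  have hterm : ∀ i j, ContDiffAt ℝ 2 (fun r => conj (α r i) * h r i j * α r j) s := fun i j =>
    ((hcα i).mul (hh i j)).mul (hα j)
  have eu : dz (dzb (uu h α)) s =
      S (h s) a12 a + S (hz h s) a1 a + S (h s) a1 a1 +
      (S (hzb h s) a2 a + S (hzz h s) a a + S (hzb h s) a a1) +
      (S (h s) a2 a2 + S (hz h s) a a2 + S (h s) a a12) := by
    have e1 : dzb (uu h α) =ᶠ[𝓝 s]
        fun r => ∑ i, ∑ j, dzb (fun r => conj (α r i) * h r i j * α r j) r := by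
      have hev : ∀ᶠ r in 𝓝 s, ∀ i j, DifferentiableAt ℝ (fun r => conj (α r i) * h r i j * α r j) r := by
        rw [eventually_all]
        intro i
        rw [eventually_all]
        exact fun j => D2 _ (hterm i j)
      filter_upwards [hev] with r hr
      have e2 : uu h α = fun r => ∑ i, ∑ j, conj (α r i) * h r i j * α r j := rfl
      rw [e2, dzb_sum]
      · refine Finset.sum_congr rfl fun i _ => ?_
        rw [dzb_sum]
        exact fun j _ => hr i j
      · exact fun i _ => DifferentiableAt.fun_sum fun j _ => hr i j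
    have hd : ∀ i j, DifferentiableAt ℝ (dzb (fun r => conj (α r i) * h r i j * α r j)) s :=
      fun i j => (contDiffAt_dzb (m := 1) (hterm i j) (by norm_num)).differentiableAt (by norm_num)
    rw [dz_congr e1, dz_sum _ fun i _ => DifferentiableAt.fun_sum fun j _ => hd i j]
    have e3 : ∀ i, dz (fun r => ∑ j, dzb (fun r => conj (α r i) * h r i j * α r j) r) s =
        ∑ j, dz (dzb (fun r => conj (α r i) * h r i j * α r j)) s := fun i =>
      dz_sum _ fun j _ => hd i j
    simp only [e3]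
    simp only [S, ← Finset.sum_add_distrib]
    refine Finset.sum_congr rfl fun i _ => Finset.sum_congr rfl fun j _ => ?_
    rw [dz_triple (hcα i) (hh i j) (hα j), c1, c2, c12]
    simp only [hz, hzb, hzz, Matrix.of_apply, ha, ha1, ha2, ha12]
  -- expansion of `dzb w`
  have ew : dzb (ww h α) s =
      S (h s) a1 a1 + S (hz h s) a1 a + (S (hzb h s) a a1 + S (h s) a a12 + S (hzz h s) a a +
        S (hz h s) a a2) := by
    have e1 : ww h α =ᶠ[𝓝 s]
        fun r => ∑ i, ∑ j, conj (α r i) * dz (fun r => h r i j * α r j) r := by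
      have hev : ∀ᶠ r in 𝓝 s, ∀ i j, DifferentiableAt ℝ (fun r => h r i j * α r j) r := by
        rw [eventually_all]
        intro i
        rw [eventually_all]
        exact fun j => D2 _ ((hh i j).mul (hα j))
      filter_upwards [hev] with r hr
      simp only [ww, qq]
      refine Finset.sum_congr rfl fun i _ => ?_
      rw [dz_sum _ fun j _ => hr i j, Finset.mul_sum]
    have hd : ∀ i j, DifferentiableAt ℝ (fun r => conj (α r i) * dz (fun r => h r i j * α r j) r) s :=
      fun i j => ((hcα i).differentiableAt (by norm_num)).mul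
        ((contDiffAt_dz (m := 1) ((hh i j).mul (hα j)) (by norm_num)).differentiableAt (by norm_num))
    rw [dzb_congr e1, dzb_sum _ fun i _ => DifferentiableAt.fun_sum fun j _ => hd i j]
    have e3 : ∀ i, dzb (fun r => ∑ j, conj (α r i) * dz (fun r => h r i j * α r j) r) s =
        ∑ j, dzb (fun r => conj (α r i) * dz (fun r => h r i j * α r j) r) s := fun i =>
      dzb_sum _ fun j _ => hd i j
    simp only [e3]
    simp only [S, ← Finset.sum_add_distrib]
    refine Finset.sum_congr rfl fun i _ => Finset.sum_congr rfl fun j _ => ?_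
    rw [dzb_pair (hcα i) (hh i j) (hα j), c2]
    simp only [hz, hzb, hzz, Matrix.of_apply, ha, ha1, ha2, ha12]
  -- hermitian symmetry
  have hherm : (h s)ᴴ = h s := H.herm s hs
  have hzbe : hzb h s = (hz h s)ᴴ := by
    ext i j
    simp only [hzb, hz, Matrix.of_apply, Matrix.conjTranspose_apply, star_def]
    have e : (fun t => h t i j) =ᶠ[𝓝 s] fun t => conj (h t j i) := by
      filter_upwards [hΩ.mem_nhds hs] with t ht
      have := H.herm t ht
      rw [← this.apply i j]
      rfl
    rw [dzb_congr e, dzb_conj]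
  -- the vector `p`
  set p : Fin n → ℂ := P - a1 with hp
  have hPp : P = a1 + p := by
    rw [hp]
    abel
  have hq := qq_eq (h := h) (α := α) (s := s) (fun i j => (hh i j).differentiableAt (by norm_num))
    (fun i => (hα i).differentiableAt (by norm_num))
  have hpe : h s *ᵥ p = hz h s *ᵥ a := by
    have h1 : h s *ᵥ P = h s *ᵥ a1 + h s *ᵥ p := by rw [hPp, Matrix.mulVec_add]
    rw [hP, hq] at h1
    exact (add_left_cancel h1).symm
  have hcurv := H.curv s hs a p hpe
  have hpos : 0 ≤ (S (h s) a2 a2).re :=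
    le_trans (mul_nonneg hc (Finset.sum_nonneg fun _ _ => by positivity)) (H.coer s hs a2)
  have r1 : (S (h s) a12 a).re = (S (h s) a a12).re := by
    rw [← re_S_swap (h s) a a12, hherm]
  have r2 : (S (hzb h s) a2 a).re = (S (hz h s) a a2).re := by
    rw [← re_S_swap (hz h s) a a2, ← hzbe]
  have r3 : (S (hzb h s) a a1).re = (S (hz h s) a1 a).re := by
    rw [← re_S_swap (hz h s) a1 a, ← hzbe]
  have r4 : (S (h s) P P).re = (S (h s) a1 a1).re + 2 * (S (hz h s) a1 a).re + (S (h s) p p).re := by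
    have h1 : S (h s) P P = S (h s) a1 a1 + S (h s) a1 p + (S (h s) p a1 + S (h s) p p) := by
      conv_lhs => rw [hPp]
      rw [S_add_left, S_add_right, S_add_right]
    have h2 : S (h s) a1 p = S (hz h s) a1 a := S_congr_right hpe a1
    have h3 : (S (h s) p a1).re = (S (h s) a1 p).re := by
      rw [← re_S_swap (h s) a1 p, hherm]
    rw [h1]
    simp only [add_re, h3, h2]
    ring
  rw [eu, ew, r4]
  simp only [add_re, r1, r2, r3]
  linarith

end

end Vale.Agent.P298.H826
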