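import Vale.Agent.P298.H826.Test

/-!
P298, row P1 (helper826): the a priori estimate `|α(0)|² ≤ 9 R² ∫ |D'α|² / |t|²`.
-/

open Complex ComplexConjugate MeasureTheory Filter Topology Metric Set
open scoped ContDiff Matrix

set_option linter.unusedSectionVars false
set_option linter.unusedVariables false

namespace Vale.Agent.P298.H826

noncomputable section

/-- the weight -/
def gg (R ε y : ℝ) : ℝ := Real.log (R ^ 2 + ε) - Real.log (y + ε) + 2 * (1 - y / R ^ 2)

/-- minus its derivative -/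
def mm (R ε y : ℝ) : ℝ := 1 / (y + ε) + 2 / R ^ 2

theorem gg_deriv {R ε y : ℝ} (hε : 0 < ε) (hy : 0 ≤ y) : HasDerivAt (gg R ε) (-mm R ε y) y := by
  have h1 : HasDerivAt (fun y : ℝ => y + ε) 1 y := (hasDerivAt_id y).add_const ε
  have h2 : HasDerivAt (fun y : ℝ => Real.log (y + ε)) (1 / (y + ε)) y := h1.log (by positivity)
  have h3 : HasDerivAt (fun y : ℝ => 2 * (1 - y / R ^ 2)) (2 * (0 - 1 / R ^ 2)) y :=
    (((hasDerivAt_const y (1 : ℝ)).sub ((hasDerivAt_id y).div_const (R ^ 2)))).const_mul 2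
  have h4 := (((hasDerivAt_const y (Real.log (R ^ 2 + ε))).sub h2).add h3)
  refine h4.congr_deriv ?_
  rw [mm]
  ring

theorem mm_deriv {R ε y : ℝ} (hε : 0 < ε) (hy : 0 ≤ y) :
    HasDerivAt (mm R ε) (-(1 / (y + ε) ^ 2)) y := by
  have h1 : HasDerivAt (fun y : ℝ => y + ε) 1 y := (hasDerivAt_id y).add_const ε
  have h2 := (h1.fun_inv (by positivity : y + ε ≠ 0)).add_const (2 / R ^ 2)
  have e : mm R ε = fun y => (y + ε)⁻¹ + 2 / R ^ 2 := by
    funext y
    rw [mm, one_div]
  rw [e]
  refine h2.congr_deriv ?_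
  ring

theorem contDiff_normSq : ContDiff ℝ 2 (fun s : ℂ => normSq s) := by
  have e : (fun s : ℂ => normSq s) = fun s => ‖s‖ ^ 2 := by
    funext s
    exact Complex.normSq_eq_norm_sq s
  rw [e]
  exact contDiff_norm_sq ℝ

theorem XX_smooth {R ε : ℝ} (hε : 0 < ε) :
    ContDiff ℝ 2 (fun s : ℂ => ((gg R ε (normSq s) : ℝ) : ℂ)) := by
  have h1 : ContDiff ℝ 2 (fun s : ℂ => normSq s + ε) := contDiff_normSq.add contDiff_const
  have h2 : ContDiff ℝ 2 (fun s : ℂ => Real.log (normSq s + ε)) := h1.log fun s => by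
    have := normSq_nonneg s
    positivity
  have h3 : ContDiff ℝ 2 (fun s : ℂ => gg R ε (normSq s)) :=
    (contDiff_const.sub h2).add (contDiff_const.mul (contDiff_const.sub (contDiff_normSq.div_const _)))
  exact ofRealCLM.contDiff.comp h3

theorem dzb_XX {R ε : ℝ} (hε : 0 < ε) (s : ℂ) :
    dzb (fun s : ℂ => ((gg R ε (normSq s) : ℝ) : ℂ)) s = -(mm R ε (normSq s) : ℂ) * s := by
  rw [dzb_radial (gg_deriv hε (normSq_nonneg s))]
  push_cast
  ring

theorem dz_dzb_XX {R ε : ℝ} (hε : 0 < ε) (s : ℂ) :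
    dz (dzb (fun s : ℂ => ((gg R ε (normSq s) : ℝ) : ℂ))) s =
      -((ε / (normSq s + ε) ^ 2 + 2 / R ^ 2 : ℝ) : ℂ) := by
  have e : dzb (fun s : ℂ => ((gg R ε (normSq s) : ℝ) : ℂ)) =
      fun s => -1 * (((mm R ε (normSq s) : ℝ) : ℂ) * s) := by
    funext s
    rw [dzb_XX hε]
    ring
  have h1 : HasDerivAt (mm R ε) (-(1 / (normSq s + ε) ^ 2)) (normSq s) :=
    mm_deriv hε (normSq_nonneg s)
  have hpos : normSq s + ε ≠ 0 := by
    have := normSq_nonneg s
    positivity
  have h2 : DifferentiableAt ℝ (fun s : ℂ => ((mm R ε (normSq s) : ℝ) : ℂ)) s := by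
    have h3 : DifferentiableAt ℝ (fun s : ℂ => mm R ε (normSq s)) s :=
      h1.differentiableAt.comp s (contDiff_normSq.differentiable (by norm_num) s)
    exact (ofRealCLM.differentiableAt).comp s h3
  have hid : DifferentiableAt ℝ (fun z : ℂ => z) s := differentiableAt_id
  rw [e, dz_const_mul (-1) (h2.fun_mul hid), dz_mul h2 hid, dz_radial h1, dz_id]
  have h5 : (((-(1 / (normSq s + ε) ^ 2) : ℝ) : ℂ)) * conj s * s =
      ((-(1 / (normSq s + ε) ^ 2) * normSq s : ℝ) : ℂ) := by
    rw [mul_assoc, mul_comm (conj s) s, mul_conj]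
    push_cast
    ring
  rw [h5, mul_one, ← ofReal_add, ← ofReal_neg, neg_one_mul, ← ofReal_neg]
  congr 1
  rw [mm]
  field_simp
  ring

theorem amgm {r y u N τ : ℝ} (hy : 0 ≤ y) (hu : 0 ≤ u) (hN : 0 ≤ N) (hτ : 0 < τ)
    (h : r ^ 2 ≤ y * u * N) : 2 * |r| ≤ τ * u + y * N / τ := by
  have h1 : (2 * |r|) ^ 2 ≤ (τ * u + y * N / τ) ^ 2 := by
    have h2 : (τ * u) * (y * N / τ) = y * u * N := by field_simp
    have h3 : (2 * |r|) ^ 2 = 4 * r ^ 2 := by
      rw [mul_pow, sq_abs]
      ring
    nlinarith [sq_nonneg (τ * u - y * N / τ)]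
  exact le_of_sq_le_sq h1 (by positivity)

theorem gg_le {R ε y : ℝ} (hR : 0 < R) (hε : 0 < ε) (hy : 0 ≤ y) :
    gg R ε y ≤ (R ^ 2 + ε) / (y + ε) + 1 := by
  have h1 : Real.log (R ^ 2 + ε) - Real.log (y + ε) = Real.log ((R ^ 2 + ε) / (y + ε)) := by
    rw [Real.log_div (by positivity) (by positivity)]
  have h2 : Real.log ((R ^ 2 + ε) / (y + ε)) ≤ (R ^ 2 + ε) / (y + ε) - 1 :=
    Real.log_le_sub_one_of_pos (by positivity)
  have h3 : 0 ≤ y / R ^ 2 := by positivity
  rw [gg, h1]
  linarith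

theorem gg_nonneg {R ε y : ℝ} (hR : 0 < R) (hε : 0 < ε) (hy : 0 ≤ y) (hyR : y ≤ R ^ 2) :
    0 ≤ gg R ε y := by
  have h1 : Real.log (y + ε) ≤ Real.log (R ^ 2 + ε) :=
    Real.log_le_log (by positivity) (by linarith)
  have h2 : y / R ^ 2 ≤ 1 := by
    rw [div_le_one (by positivity)]
    exact hyR
  rw [gg]
  linarith

/-- the pointwise absorption -/
theorem absorb {R ε y u N r : ℝ} (hR : 0 < R) (hε : 0 < ε) (hy : 0 < y) (hyR : y ≤ R ^ 2)
    (hu : 0 ≤ u) (hN : 0 ≤ N) (h : r ^ 2 ≤ y * u * N) :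
    gg R ε y * N - 2 * (mm R ε y * r) - (2 / R ^ 2) * u ≤ (7 * R ^ 2 + 6 * ε) * (N / y) := by
  have h1 : 2 * |r| ≤ ((y + ε) / R ^ 2) * u + y * N / ((y + ε) / R ^ 2) :=
    amgm hy.le hu hN (by positivity) h
  have h2 : 2 * |r| ≤ (1 / 2) * u + y * N / (1 / 2) := amgm hy.le hu hN (by norm_num) h
  have h3 : -(2 * (mm R ε y * r)) ≤ mm R ε y * (2 * |r|) := by
    have hm : 0 ≤ mm R ε y := by
      rw [mm]
      positivity
    have := neg_abs_le r
    nlinarith
  have h4 : mm R ε y * (2 * |r|) ≤ (1 / (y + ε)) * (((y + ε) / R ^ 2) * u + y * N / ((y + ε) / R ^ 2)) +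
      (2 / R ^ 2) * ((1 / 2) * u + y * N / (1 / 2)) := by
    rw [mm, add_mul]
    exact add_le_add (mul_le_mul_of_nonneg_left h1 (by positivity))
      (mul_le_mul_of_nonneg_left h2 (by positivity))
  have h5 : (1 / (y + ε)) * (((y + ε) / R ^ 2) * u + y * N / ((y + ε) / R ^ 2)) +
      (2 / R ^ 2) * ((1 / 2) * u + y * N / (1 / 2)) =
      (2 / R ^ 2) * u + (R ^ 2 * y / (y + ε) ^ 2) * N + (4 * (y / R ^ 2)) * N := by
    field_simp
    ring
  have h6 : R ^ 2 * y / (y + ε) ^ 2 ≤ R ^ 2 / (y + ε) := by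
    rw [div_le_div_iff₀ (by positivity) (by positivity)]
    nlinarith [mul_pos (mul_pos hR hR) hε, mul_pos hy hε, sq_nonneg R, mul_pos (pow_pos hR 2) hε,
      mul_pos (mul_pos (pow_pos hR 2) hε) hy, mul_pos (mul_pos (pow_pos hR 2) hε) hε]
  have h7 : y / R ^ 2 ≤ 1 := by
    rw [div_le_one (by positivity)]
    exact hyR
  have h8 := gg_le (R := R) (ε := ε) (y := y) hR hε hy.le
  have h9 : (R ^ 2 + ε) / (y + ε) + 1 + R ^ 2 / (y + ε) + 4 ≤ (7 * R ^ 2 + 6 * ε) / y := by
    have h10 : (5 : ℝ) ≤ 5 * (R ^ 2 + ε) / (y + ε) := by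
      rw [le_div_iff₀ (by positivity)]
      linarith
    have h11 : (R ^ 2 + ε) / (y + ε) + R ^ 2 / (y + ε) + 5 * (R ^ 2 + ε) / (y + ε) =
        (7 * R ^ 2 + 6 * ε) / (y + ε) := by
      rw [← add_div, ← add_div]
      congr 1
      ring
    have h12 : (7 * R ^ 2 + 6 * ε) / (y + ε) ≤ (7 * R ^ 2 + 6 * ε) / y := by
      apply div_le_div_of_nonneg_left (by positivity) hy (by linarith)
    linarith
  have h13 : gg R ε y * N ≤ ((R ^ 2 + ε) / (y + ε) + 1) * N := mul_le_mul_of_nonneg_right h8 hN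
  have h14 : (R ^ 2 * y / (y + ε) ^ 2) * N ≤ (R ^ 2 / (y + ε)) * N := mul_le_mul_of_nonneg_right h6 hN
  have h15 : (4 * (y / R ^ 2)) * N ≤ 4 * N := mul_le_mul_of_nonneg_right (by linarith) hN
  have h16 : ((R ^ 2 + ε) / (y + ε) + 1 + R ^ 2 / (y + ε) + 4) * N ≤ ((7 * R ^ 2 + 6 * ε) / y) * N :=
    mul_le_mul_of_nonneg_right h9 hN
  have h17 : (7 * R ^ 2 + 6 * ε) / y * N = (7 * R ^ 2 + 6 * ε) * (N / y) := by ring
  rw [h17] at h16
  linarith

variable {n : ℕ} {h : ℂ → Matrix (Fin n) (Fin n) ℂ} {Ω : Set ℂ} {c : ℝ} {α : ℂ → Fin n → ℂ}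

namespace Tst

theorem dzdzb_uu_zero (A : Tst Ω α) {s : ℂ} (hs : s ∉ tsupport α) : dz (dzb (uu h α)) s = 0 := by
  have e : dzb (uu h α) =ᶠ[𝓝 s] fun _ => 0 := by
    filter_upwards [(isClosed_tsupport α).isOpen_compl.mem_nhds hs] with t ht
    have e2 : uu h α =ᶠ[𝓝 t] fun _ => 0 := by
      filter_upwards [(isClosed_tsupport α).isOpen_compl.mem_nhds ht] with r hr
      exact A.uu_zero hr
    rw [dzb_congr e2, dzb_const]
  rw [dz_congr e, dz_const]

theorem dzb_ww_zero (A : Tst Ω α) {s : ℂ} (hs : s ∉ tsupport α) : dzb (ww h α) s = 0 := by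
  have e2 : ww h α =ᶠ[𝓝 s] fun _ => 0 := by
    filter_upwards [(isClosed_tsupport α).isOpen_compl.mem_nhds hs] with r hr
    exact A.ww_zero hr
  rw [dzb_congr e2, dzb_const]

/-- The integrated inequality. -/
theorem integrated (A : Tst Ω α) (hΩ : IsOpen Ω) {R : ℝ} (hR : 0 < R) (hΩR : Ω ⊆ ball 0 R)
    (H : Met h Ω c) (hc : 0 < c) {ε : ℝ} (hε : 0 < ε) :
    0 ≤ ∫ s, (-(ε / (normSq s + ε) ^ 2 + 2 / R ^ 2) * (uu h α s).re + gg R ε (normSq s) * NN h α s -
      2 * (mm R ε (normSq s) * (s * ww h α s).re)) := by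
  set X : ℂ → ℂ := fun s => ((gg R ε (normSq s) : ℝ) : ℂ) with hX
  have hXs : ContDiff ℝ 2 X := XX_smooth hε
  have hu := A.uu_smooth hΩ H
  have hw := A.ww_smooth hΩ H
  have hu1 : ContDiff ℝ 1 (dzb (uu h α)) := contDiff_dzb hu (by norm_num)
  -- integration by parts
  have J1 : ∫ s, X s * dz (dzb (uu h α)) s = ∫ s, dz (dzb X) s * uu h α s := by
    rw [ibp_dz (hXs.of_le (by norm_num)) hu1 (hasCompactSupport_dzb A.uu_comp)]
    rw [ibp_dzb (contDiff_dz (m := 1) hXs (by norm_num)) (hu.of_le (by norm_num)) A.uu_comp]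
    rw [neg_neg]
    congr 1
    funext s
    rw [dz_dzb_comm hXs.contDiffAt]
  have J2 : ∫ s, X s * dzb (ww h α) s = - ∫ s, dzb X s * ww h α s :=
    ibp_dzb (hXs.of_le (by norm_num)) hw A.ww_comp
  -- continuity and integrability
  have cg : Continuous fun s : ℂ => gg R ε (normSq s) := by
    have := Complex.continuous_re.comp hXs.continuous
    exact this
  have cN := A.NN_cont hΩ H hc
  have cD : Continuous (dz (dzb (uu h α))) := (contDiff_dz (m := 0) hu1 (by norm_num)).continuous
  have cW : Continuous (dzb (ww h α)) := (contDiff_dzb (m := 0) hw (by norm_num)).continuous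
  have cXd : Continuous (dzb X) := (contDiff_dzb (m := 1) hXs (by norm_num)).continuous
  have cXdd : Continuous (dz (dzb X)) :=
    (contDiff_dz (m := 0) (contDiff_dzb (m := 1) hXs (by norm_num)) (by norm_num)).continuous
  have i1 : Integrable fun s => X s * dz (dzb (uu h α)) s :=
    (hXs.continuous.mul cD).integrable_of_hasCompactSupport
      (hasCompactSupport_dz (hasCompactSupport_dzb A.uu_comp)).mul_left
  have i2 : Integrable fun s => X s * dzb (ww h α) s :=
    (hXs.continuous.mul cW).integrable_of_hasCompactSupport (hasCompactSupport_dzb A.ww_comp).mul_left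
  have i3 : Integrable fun s => gg R ε (normSq s) * NN h α s :=
    (cg.mul cN).integrable_of_hasCompactSupport A.NN_comp.mul_left
  have i4 : Integrable fun s => dz (dzb X) s * uu h α s :=
    (cXdd.mul hu.continuous).integrable_of_hasCompactSupport A.uu_comp.mul_left
  have i5 : Integrable fun s => dzb X s * ww h α s :=
    (cXd.mul hw.continuous).integrable_of_hasCompactSupport A.ww_comp.mul_left
  -- the nonnegative integrand
  have hpt : ∀ s, 0 ≤ (X s * dz (dzb (uu h α)) s).re + gg R ε (normSq s) * NN h α s -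
      2 * (X s * dzb (ww h α) s).re := by
    intro s
    by_cases hs : s ∈ tsupport α
    · have hsΩ := A.sub hs
      have h1 := pointwise hΩ H hc.le hsΩ (fun i => (A.smooth i).contDiffAt)
        (A.PP_spec H hc hsΩ)
      have h2 : 0 ≤ gg R ε (normSq s) := by
        refine gg_nonneg hR hε (normSq_nonneg s) ?_
        have h3 : ‖s‖ < R := by simpa using hΩR hsΩ
        rw [Complex.normSq_eq_norm_sq]
        exact pow_le_pow_left₀ (norm_nonneg s) h3.le 2
      have h3 : (X s * dz (dzb (uu h α)) s).re = gg R ε (normSq s) * (dz (dzb (uu h α)) s).re := by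
        rw [hX, re_ofReal_mul]
      have h4 : (X s * dzb (ww h α) s).re = gg R ε (normSq s) * (dzb (ww h α) s).re := by
        rw [hX, re_ofReal_mul]
      rw [h3, h4]
      have h5 : NN h α s = (S (h s) (PP h α s) (PP h α s)).re := rfl
      rw [h5]
      nlinarith
    · rw [A.dzdzb_uu_zero hs, A.dzb_ww_zero hs, A.NN_zero hs]
      simp
  have r1 : Integrable fun s => (X s * dz (dzb (uu h α)) s).re := i1.re
  have r2 : Integrable fun s => (X s * dzb (ww h α) s).re := i2.re
  have r4 : Integrable fun s => (dz (dzb X) s * uu h α s).re := i4.re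
  have r5 : Integrable fun s => (dzb X s * ww h α s).re := i5.re
  have e0 : ∫ s, ((X s * dz (dzb (uu h α)) s).re + gg R ε (normSq s) * NN h α s -
      2 * (X s * dzb (ww h α) s).re) =
      (∫ s, (X s * dz (dzb (uu h α)) s).re) + (∫ s, gg R ε (normSq s) * NN h α s) -
      2 * ∫ s, (X s * dzb (ww h α) s).re := by
    have r13 : Integrable fun s => (X s * dz (dzb (uu h α)) s).re + gg R ε (normSq s) * NN h α s :=
      r1.add i3
    rw [integral_sub r13 (r2.const_mul 2), integral_add r1 i3, integral_const_mul]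
  have e1 : ∫ s, (X s * dz (dzb (uu h α)) s).re = ∫ s, (dz (dzb X) s * uu h α s).re := by
    have a1 := integral_re i1
    have a2 := integral_re i4
    simp only [RCLike.re_to_complex] at a1 a2
    rw [a1, a2, J1]
  have e2 : ∫ s, (X s * dzb (ww h α) s).re = - ∫ s, (dzb X s * ww h α s).re := by
    have a1 := integral_re i2
    have a2 := integral_re i5
    simp only [RCLike.re_to_complex] at a1 a2
    rw [a1, a2, J2, neg_re]
  have hI2 : 0 ≤ ∫ s, ((X s * dz (dzb (uu h α)) s).re + gg R ε (normSq s) * NN h α s -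
      2 * (X s * dzb (ww h α) s).re) := integral_nonneg fun s => hpt s
  rw [e0, e1, e2] at hI2
  have e3 : (∫ s, (dz (dzb X) s * uu h α s).re) + (∫ s, gg R ε (normSq s) * NN h α s) -
      2 * -(∫ s, (dzb X s * ww h α s).re) =
      ∫ s, ((dz (dzb X) s * uu h α s).re + gg R ε (normSq s) * NN h α s +
        2 * (dzb X s * ww h α s).re) := by
    have r43 : Integrable fun s => (dz (dzb X) s * uu h α s).re + gg R ε (normSq s) * NN h α s :=
      r4.add i3
    rw [integral_add r43 (r5.const_mul 2), integral_add r4 i3, integral_const_mul]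
    ring
  rw [e3] at hI2
  refine hI2.trans (le_of_eq ?_)
  congr 1
  funext s
  rw [hX, dz_dzb_XX hε, dzb_XX hε]
  have e4 : (-((ε / (normSq s + ε) ^ 2 + 2 / R ^ 2 : ℝ) : ℂ) * uu h α s).re =
      -(ε / (normSq s + ε) ^ 2 + 2 / R ^ 2) * (uu h α s).re := by
    rw [← ofReal_neg, re_ofReal_mul]
  have e5 : (-(mm R ε (normSq s) : ℂ) * s * ww h α s).re =
      -(mm R ε (normSq s) * (s * ww h α s).re) := by
    rw [mul_assoc, ← ofReal_neg, re_ofReal_mul]
    ring
  rw [e4, e5]
  ring

/-- `|D'α|² / |t|²` is integrable for test sections with `D'α (0) = 0`. -/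
theorem integrable_NN (A : Tst Ω α) (hΩ : IsOpen Ω) (H : Met h Ω c) (hc : 0 < c)
    (h0 : qq h α 0 = 0) : Integrable fun s => NN h α s / normSq s := by
  -- Lipschitz bound for `q`
  have hL : ∀ i, ∃ L : ℝ, 0 ≤ L ∧ ∀ s, ‖qq h α s i‖ ≤ L * ‖s‖ := by
    intro i
    obtain ⟨L, hL⟩ := ContDiff.lipschitzWith_of_hasCompactSupport (A.qq_comp (h := h) i)
      (A.qq_smooth hΩ H i) one_ne_zero
    refine ⟨L, L.2, fun s => ?_⟩
    have := hL.dist_le_mul s 0
    rw [h0] at this
    simpa [dist_eq_norm] using this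
  choose L hL0 hL using hL
  set B : ℝ := (∑ i, L i ^ 2) / c with hB
  have hB0 : 0 ≤ B := by positivity
  have hbound : ∀ s, ‖NN h α s / normSq s‖ ≤ B := by
    intro s
    have h1 := A.NN_le H hc s
    have h2 := A.NN_nonneg H hc s
    have h3 : ∑ i, ‖qq h α s i‖ ^ 2 ≤ (∑ i, L i ^ 2) * normSq s := by
      rw [Finset.sum_mul]
      refine Finset.sum_le_sum fun i _ => ?_
      calc ‖qq h α s i‖ ^ 2 ≤ (L i * ‖s‖) ^ 2 := pow_le_pow_left₀ (norm_nonneg _) (hL i s) 2
        _ = L i ^ 2 * normSq s := by rw [mul_pow, Complex.normSq_eq_norm_sq]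
    rw [Real.norm_of_nonneg (div_nonneg h2 (normSq_nonneg s))]
    rcases (normSq_nonneg s).eq_or_lt with h4 | h4
    · rw [← h4, div_zero]
      exact hB0
    · rw [div_le_iff₀ h4, hB, div_mul_eq_mul_div, le_div_iff₀ hc]
      linarith
  have hmeas : AEStronglyMeasurable (fun s => NN h α s / normSq s) volume := by
    have h1 : Measurable (fun s => NN h α s / normSq s) :=
      (A.NN_cont hΩ H hc).measurable.div continuous_normSq.measurable
    exact h1.aestronglyMeasurable
  have hsupp : (fun s => NN h α s / normSq s) =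
      (tsupport α).indicator (fun s => NN h α s / normSq s) := by
    funext s
    by_cases hs : s ∈ tsupport α
    · rw [indicator_of_mem hs]
    · rw [indicator_of_notMem hs, A.NN_zero hs, zero_div]
  rw [hsupp, integrable_indicator_iff (isClosed_tsupport α).measurableSet]
  refine Measure.integrableOn_of_bounded (M := B) ?_ hmeas (Eventually.of_forall hbound)
  have : IsCompact (tsupport α) := A.comp
  exact this.measure_lt_top.ne

theorem eps_bound (A : Tst Ω α) (hΩ : IsOpen Ω) {R : ℝ} (hR : 0 < R) (hΩR : Ω ⊆ ball 0 R)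
    (H : Met h Ω c) (hc : 0 < c) (h0 : qq h α 0 = 0) {ε : ℝ} (hε : 0 < ε) :
    ∫ s, ε / (normSq s + ε) ^ 2 * (uu h α s).re ≤
      (7 * R ^ 2 + 6 * ε) * ∫ s, NN h α s / normSq s := by
  have hint := A.integrable_NN hΩ H hc h0
  have hu := A.uu_smooth hΩ H
  have hw := A.ww_smooth hΩ H
  have cu : Continuous fun s => (uu h α s).re := continuous_re.comp hu.continuous
  have hden : ∀ s : ℂ, normSq s + ε ≠ 0 := fun s => by
    have := normSq_nonneg s
    positivity
  have ck : Continuous fun s : ℂ => ε / (normSq s + ε) ^ 2 :=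
    continuous_const.div ((continuous_normSq.add continuous_const).pow 2) fun s => pow_ne_zero 2 (hden s)
  have cg : Continuous fun s : ℂ => gg R ε (normSq s) := by
    have := Complex.continuous_re.comp (XX_smooth (R := R) hε).continuous
    exact this
  have cm : Continuous fun s : ℂ => mm R ε (normSq s) := by
    unfold mm
    exact (continuous_const.div (continuous_normSq.add continuous_const) hden).add continuous_const
  have supu : HasCompactSupport fun s => (uu h α s).re :=
    HasCompactSupport.intro A.comp fun s hs => by rw [A.uu_zero hs]; rfl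
  have supw : HasCompactSupport fun s => (s * ww h α s).re :=
    HasCompactSupport.intro A.comp fun s hs => by rw [A.ww_zero hs]; simp
  have cw : Continuous fun s => (s * ww h α s).re :=
    continuous_re.comp (continuous_id.mul hw.continuous)
  have i1 : Integrable fun s : ℂ => ε / (normSq s + ε) ^ 2 * (uu h α s).re :=
    (ck.mul cu).integrable_of_hasCompactSupport supu.mul_left
  have i2 : Integrable fun s : ℂ => -(ε / (normSq s + ε) ^ 2 + 2 / R ^ 2) * (uu h α s).re +
      gg R ε (normSq s) * NN h α s - 2 * (mm R ε (normSq s) * (s * ww h α s).re) := by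
    refine ((((ck.add continuous_const).neg.mul cu).integrable_of_hasCompactSupport supu.mul_left).add
      ((cg.mul (A.NN_cont hΩ H hc)).integrable_of_hasCompactSupport A.NN_comp.mul_left)).sub ?_
    exact ((cm.mul cw).integrable_of_hasCompactSupport supw.mul_left).const_mul 2
  have hI := A.integrated hΩ hR hΩR H hc hε
  have hmono : ∫ s : ℂ, (-(ε / (normSq s + ε) ^ 2 + 2 / R ^ 2) * (uu h α s).re +
      gg R ε (normSq s) * NN h α s - 2 * (mm R ε (normSq s) * (s * ww h α s).re)) ≤
      ∫ s : ℂ, ((7 * R ^ 2 + 6 * ε) * (NN h α s / normSq s) -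
        ε / (normSq s + ε) ^ 2 * (uu h α s).re) := by
    refine integral_mono_ae i2 ((hint.const_mul _).sub i1) ?_
    have hne : ∀ᵐ s : ℂ, s ≠ 0 := by
      rw [ae_iff]
      simp
    filter_upwards [hne] with s hs0
    by_cases hs : s ∈ tsupport α
    · have hy : 0 < normSq s := normSq_pos.2 hs0
      have hyR : normSq s ≤ R ^ 2 := by
        have h3 : ‖s‖ < R := by simpa using hΩR (A.sub hs)
        rw [Complex.normSq_eq_norm_sq]
        exact pow_le_pow_left₀ (norm_nonneg s) h3.le 2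
      have hr : ((s * ww h α s).re) ^ 2 ≤ normSq s * (uu h α s).re * NN h α s := by
        have h1 : ((s * ww h α s).re) ^ 2 ≤ ‖s * ww h α s‖ ^ 2 := by
          rw [← sq_abs]
          exact pow_le_pow_left₀ (abs_nonneg _) (abs_re_le_norm _) 2
        have h2 := A.ww_le H hc s
        rw [norm_mul, mul_pow, ← Complex.normSq_eq_norm_sq s] at h1
        calc _ ≤ normSq s * ‖ww h α s‖ ^ 2 := h1
          _ ≤ normSq s * ((uu h α s).re * NN h α s) :=
              mul_le_mul_of_nonneg_left h2 (normSq_nonneg s)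
          _ = _ := by ring
      have := absorb hR hε hy hyR (A.uu_nonneg H hc s) (A.NN_nonneg H hc s) hr
      linarith
    · simp [A.uu_zero hs, A.ww_zero hs, A.NN_zero hs]
  rw [integral_sub (hint.const_mul _) i1, integral_const_mul] at hmono
  linarith

/-- **The a priori estimate.** -/
theorem point_bound (A : Tst Ω α) (hΩ : IsOpen Ω) {R : ℝ} (hR : 0 < R) (hΩR : Ω ⊆ ball 0 R)
    (H : Met h Ω c) (hc : 0 < c) (h0 : qq h α 0 = 0) :
    (uu h α 0).re ≤ 9 * R ^ 2 * ∫ s, NN h α s / normSq s := by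
  set I0 := ∫ s, NN h α s / normSq s with hI0
  have hI0n : 0 ≤ I0 := integral_nonneg fun s => div_nonneg (A.NN_nonneg H hc s) (normSq_nonneg s)
  have hu := A.uu_smooth hΩ H
  have cu : Continuous fun s => (uu h α s).re := continuous_re.comp hu.continuous
  -- for every `η > 0`
  have key : ∀ η > 0, Real.pi / 4 * ((uu h α 0).re - η) ≤ 7 * R ^ 2 * I0 := by
    intro η hη
    rcases le_or_gt ((uu h α 0).re - η) 0 with hle | hgt
    · have : Real.pi / 4 * ((uu h α 0).re - η) ≤ 0 :=
        mul_nonpos_of_nonneg_of_nonpos (by positivity) hle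
      have : 0 ≤ 7 * R ^ 2 * I0 := by positivity
      linarith
    obtain ⟨δ, hδ, hδ2⟩ := Metric.continuous_iff.1 cu 0 η hη
    have hsmall : ∀ ε : ℝ, 0 < ε → ε < δ ^ 2 →
        Real.pi / 4 * ((uu h α 0).re - η) ≤ (7 * R ^ 2 + 6 * ε) * I0 := by
      intro ε hε hεδ
      refine le_trans ?_ (A.eps_bound hΩ hR hΩR H hc h0 hε)
      have hsqrt : Real.sqrt ε < δ := by
        rw [← Real.sqrt_sq hδ.le]
        exact Real.sqrt_lt_sqrt hε.le hεδ
      have i1 : Integrable fun s : ℂ => ε / (normSq s + ε) ^ 2 * (uu h α s).re := by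
        have hden : ∀ s : ℂ, normSq s + ε ≠ 0 := fun s => by
          have := normSq_nonneg s
          positivity
        have ck : Continuous fun s : ℂ => ε / (normSq s + ε) ^ 2 :=
          continuous_const.div ((continuous_normSq.add continuous_const).pow 2)
            fun s => pow_ne_zero 2 (hden s)
        have supu : HasCompactSupport fun s => (uu h α s).re :=
          HasCompactSupport.intro A.comp fun s hs => by rw [A.uu_zero hs]; rfl
        exact (ck.mul cu).integrable_of_hasCompactSupport supu.mul_left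
      have h1 : ∫ s in ball (0 : ℂ) (Real.sqrt ε), (1 / (4 * ε) * ((uu h α 0).re - η)) ≤
          ∫ s in ball (0 : ℂ) (Real.sqrt ε), ε / (normSq s + ε) ^ 2 * (uu h α s).re := by
        refine setIntegral_mono_on ?_ i1.integrableOn measurableSet_ball fun s hs => ?_
        · exact (integrableOn_const_iff (C := (1 / (4 * ε) * ((uu h α 0).re - η)))).2
            (Or.inr measure_ball_lt_top)
        · have hs1 : ‖s‖ < Real.sqrt ε := by simpa using hs
          have hs2 : normSq s ≤ ε := by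
            rw [Complex.normSq_eq_norm_sq]
            calc ‖s‖ ^ 2 ≤ (Real.sqrt ε) ^ 2 := pow_le_pow_left₀ (norm_nonneg s) hs1.le 2
              _ = ε := Real.sq_sqrt hε.le
          have hs3 : (uu h α 0).re - η ≤ (uu h α s).re := by
            have := hδ2 s (by simpa using hs1.trans hsqrt)
            rw [Real.dist_eq] at this
            have := (abs_lt.1 this).1
            linarith
          have hs4 : 1 / (4 * ε) ≤ ε / (normSq s + ε) ^ 2 := by
            have hn := normSq_nonneg s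
            rw [div_le_div_iff₀ (by positivity) (by positivity)]
            nlinarith
          exact mul_le_mul hs4 hs3 hgt.le (by positivity)
      have h2 : ∫ s in ball (0 : ℂ) (Real.sqrt ε), (1 / (4 * ε) * ((uu h α 0).re - η)) =
          Real.pi / 4 * ((uu h α 0).re - η) := by
        rw [setIntegral_const, measureReal_def, Complex.volume_ball]
        simp only [ENNReal.toReal_mul, ENNReal.toReal_pow, smul_eq_mul]
        rw [ENNReal.toReal_ofReal (Real.sqrt_nonneg ε), Real.sq_sqrt hε.le]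
        simp only [ENNReal.coe_toReal, NNReal.coe_real_pi]
        field_simp
      have h3 : ∫ s in ball (0 : ℂ) (Real.sqrt ε), ε / (normSq s + ε) ^ 2 * (uu h α s).re ≤
          ∫ s, ε / (normSq s + ε) ^ 2 * (uu h α s).re := by
        refine setIntegral_le_integral i1 (Eventually.of_forall fun s => ?_)
        exact mul_nonneg (by positivity) (A.uu_nonneg H hc s)
      linarith
    -- let `ε → 0`
    have hlim : Tendsto (fun ε : ℝ => (7 * R ^ 2 + 6 * ε) * I0) (𝓝[>] 0) (𝓝 ((7 * R ^ 2 + 6 * 0) * I0)) := by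
      refine Tendsto.mono_left ?_ nhdsWithin_le_nhds
      have : Continuous fun ε : ℝ => (7 * R ^ 2 + 6 * ε) * I0 := by fun_prop
      exact this.tendsto 0
    have h5 : Real.pi / 4 * ((uu h α 0).re - η) ≤ (7 * R ^ 2 + 6 * 0) * I0 := by
      refine ge_of_tendsto hlim ?_
      filter_upwards [Ioo_mem_nhdsGT (show (0 : ℝ) < δ ^ 2 by positivity)] with ε hε
      exact hsmall ε hε.1 hε.2
    linarith
  have h1 : Real.pi / 4 * (uu h α 0).re ≤ 7 * R ^ 2 * I0 := by
    refine le_of_forall_pos_le_add fun e he => ?_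
    have := key (e / Real.pi * 4) (by positivity)
    have h2 : Real.pi / 4 * (e / Real.pi * 4) = e := by
      have := Real.pi_ne_zero
      field_simp
    linarith
  have hpi := Real.pi_gt_d2
  have h3 : 0 ≤ (uu h α 0).re := A.uu_nonneg H hc 0
  nlinarith [mul_nonneg (mul_nonneg (sq_nonneg R) hI0n) (by linarith : (0 : ℝ) ≤ 9 * (Real.pi / 4) - 7)]

end Tst

end

end Vale.Agent.P298.H826
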