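import Mathlib

/-!
P298, row P1 (helper826): Riesz representation for a positive semidefinite form, by a minimizing
sequence.
-/

open Filter Topology ComplexConjugate Complex

namespace Vale.Agent.P298.H826

section

variable {E : Type*} [AddCommGroup E] [Module ℂ E] {B : E → E → ℂ}

/-- A positive semidefinite hermitian form, conjugate-linear in the first variable. -/
structure SemiForm (B : E → E → ℂ) : Prop where
  symm : ∀ x y, conj (B y x) = B x y
  pos : ∀ x, 0 ≤ (B x x).re
  add : ∀ x y z, B (x + y) z = B x z + B y z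
  smul : ∀ (r : ℂ) x y, B (r • x) y = conj r * B x y

namespace SemiForm

variable (H : SemiForm B)

include H

theorem add_right (x y z : E) : B x (y + z) = B x y + B x z := by
  rw [← H.symm, H.add, map_add, H.symm, H.symm]

theorem smul_right (r : ℂ) (x y : E) : B x (r • y) = r * B x y := by
  rw [← H.symm, H.smul, map_mul, conj_conj, H.symm]

theorem expand (x y : E) (r : ℂ) :
    (B (x + r • y) (x + r • y)).re =
      (B x x).re + 2 * (r * B x y).re + normSq r * (B y y).re := by
  rw [H.add, H.add_right, H.add_right, H.smul, H.smul, H.smul_right, H.smul_right]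
  have h1 : (conj r * B y x).re = (r * B x y).re := by
    rw [← conj_re, map_mul, conj_conj, H.symm]
  have h2 : conj r * (r * B y y) = (normSq r : ℂ) * B y y := by
    rw [← mul_assoc, mul_comm (conj r) r, mul_conj]
  rw [h2]
  simp only [add_re, h1, re_ofReal_mul]
  ring

theorem riesz (l : E →ₗ[ℂ] ℂ) {C : ℝ} (hC : 0 ≤ C) (h : ∀ x, ‖l x‖ ^ 2 ≤ C * (B x x).re) :
    ∃ x : ℕ → E, (∀ y, Tendsto (fun k => B (x k) y) atTop (𝓝 (l y))) ∧
      (∀ ε > 0, ∃ K, ∀ j ≥ K, ∀ k ≥ K, (B (x j - x k) (x j - x k)).re < ε) ∧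
      (∀ ε > 0, ∃ K, ∀ k ≥ K, (B (x k) (x k)).re < 4 * C + ε) := by
  set q : E → ℝ := fun x => (B x x).re with hq
  set J : E → ℝ := fun x => q x - 2 * (l x).re with hJ
  have hq0 : ∀ x, 0 ≤ q x := H.pos
  have hl2 : ∀ x, ∀ a b : ℝ, 0 ≤ a → 0 ≤ b → a * b = C * q x → 2 * (l x).re ≤ a + b := by
    intro x a b ha hb hab
    have h1 : (2 * ‖l x‖) ^ 2 ≤ (a + b) ^ 2 := by
      have := h x
      nlinarith [sq_nonneg (a - b)]
    have h2 := le_of_sq_le_sq h1 (by positivity)
    have h3 := re_le_norm (l x)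
    linarith
  have hJ0 : ∀ x, -C ≤ J x := by
    intro x
    have := hl2 x C (q x) hC (hq0 x) rfl
    simp only [hJ]
    linarith
  have hbdd : BddBelow (Set.range J) := ⟨-C, by rintro _ ⟨x, rfl⟩; exact hJ0 x⟩
  set m := sInf (Set.range J) with hm
  have hmJ : ∀ x, m ≤ J x := fun x => csInf_le hbdd ⟨x, rfl⟩
  have hJzero : J 0 = 0 := by
    have h1 : B 0 0 = 0 := by
      have := H.smul 0 0 0
      simpa using this
    simp [hJ, hq, h1]
  have hm0 : m ≤ 0 := (hmJ 0).trans_eq hJzero
  set δ : ℕ → ℝ := fun k => 1 / ((k : ℝ) + 1) with hδ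
  have hδpos : ∀ k, 0 < δ k := fun k => by simp only [hδ]; positivity
  have hδlim : Tendsto δ atTop (𝓝 0) := tendsto_one_div_add_atTop_nhds_zero_nat
  have hex : ∀ k, ∃ x, J x < m + δ k := by
    intro k
    obtain ⟨_, ⟨x, rfl⟩, hx⟩ := exists_lt_of_csInf_lt (Set.range_nonempty J)
      (show sInf (Set.range J) < m + δ k by linarith [hδpos k])
    exact ⟨x, hx⟩
  choose x hx using hex
  have hscale : ∀ (r : ℂ) (y : E), q (r • y) = normSq r * q y := by
    intro r y
    simp only [hq]
    rw [H.smul, H.smul_right, ← mul_assoc, mul_comm (conj r) r, mul_conj, re_ofReal_mul]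
  have hpar : ∀ a b : E, q (a - b) ≤ 2 * J a + 2 * J b - 4 * m := by
    intro a b
    have h1 := H.expand a b 1
    have h2 := H.expand a b (-1)
    have h3 := hmJ ((1 / 2 : ℂ) • (a + b))
    have h4 : J ((1 / 2 : ℂ) • (a + b)) = q (a + b) / 4 - ((l a).re + (l b).re) := by
      simp only [hJ]
      rw [hscale, map_smul, map_add]
      have : normSq (1 / 2 : ℂ) = 1 / 4 := by
        rw [map_div₀]
        simp
        norm_num
      rw [this]
      have h5 : ((1 / 2 : ℂ) • (l a + l b)).re = ((l a).re + (l b).re) / 2 := by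
        have : (1 / 2 : ℂ) • (l a + l b) = ((1 / 2 : ℝ) : ℂ) * (l a + l b) := by
          rw [smul_eq_mul]
          norm_num
        rw [this, re_ofReal_mul, add_re]
        ring
      rw [h5]
      ring
    rw [h4] at h3
    have e1 : a + (1 : ℂ) • b = a + b := by rw [one_smul]
    have e2 : a + (-1 : ℂ) • b = a - b := by rw [neg_one_smul, sub_eq_add_neg]
    rw [e1] at h1
    rw [e2] at h2
    have e3 : normSq (-1 : ℂ) = 1 := by simp
    rw [e3] at h2
    simp only [normSq_one, one_mul, neg_mul, neg_re] at h1 h2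
    simp only [hJ, hq] at h3 ⊢
    linarith
  refine ⟨x, fun y => ?_, fun ε hε => ?_, fun ε hε => ?_⟩
  · -- convergence of `B (x k) y`
    rw [tendsto_iff_norm_sub_tendsto_zero]
    have hb := hq0 y
    have key : ∀ k, ‖B (x k) y - l y‖ ^ 2 * (2 - Real.sqrt (δ k) * q y) ≤ Real.sqrt (δ k) := by
      intro k
      set D := B (x k) y - l y with hD
      set τ := Real.sqrt (δ k) with hτ
      have hτ0 : 0 < τ := Real.sqrt_pos.2 (hδpos k)
      have hτ2 : τ ^ 2 = δ k := Real.sq_sqrt (hδpos k).le
      set r : ℂ := -(τ : ℂ) * conj D with hr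
      have h1 := hmJ (x k + r • y)
      have h2 := hx k
      have h3 : J (x k + r • y) = J (x k) + 2 * (r * D).re + normSq r * q y := by
        have h4 : (l (x k + r • y)).re = (l (x k)).re + (r * l y).re := by
          rw [map_add, map_smul, add_re, smul_eq_mul]
        have h5 : (r * D).re = (r * B (x k) y).re - (r * l y).re := by
          rw [hD, mul_sub, sub_re]
        simp only [hJ, hq]
        rw [H.expand, h4, h5]
        ring
      have h4 : (r * D).re = -τ * ‖D‖ ^ 2 := by
        have : r * D = ((-τ * ‖D‖ ^ 2 : ℝ) : ℂ) := by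
          rw [hr, ← Complex.normSq_eq_norm_sq, mul_assoc, mul_comm (conj D) D, mul_conj]
          push_cast
          ring
        rw [this, ofReal_re]
      have h5 : normSq r = τ ^ 2 * ‖D‖ ^ 2 := by
        rw [hr, normSq_mul, normSq_neg, normSq_ofReal, normSq_conj, Complex.normSq_eq_norm_sq]
        ring
      rw [h3, h4, h5] at h1
      have h6 : τ * (‖D‖ ^ 2 * (2 - τ * q y)) ≤ τ * τ := by nlinarith
      exact le_of_mul_le_mul_left h6 hτ0
    have hs : Tendsto (fun k => Real.sqrt (δ k)) atTop (𝓝 0) := by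
      have := (Real.continuous_sqrt.tendsto 0).comp hδlim
      rw [Real.sqrt_zero] at this
      exact this
    have h1 : Tendsto (fun k => Real.sqrt (Real.sqrt (δ k))) atTop (𝓝 0) := by
      have := (Real.continuous_sqrt.tendsto 0).comp hs
      rw [Real.sqrt_zero] at this
      exact this
    refine squeeze_zero' (Eventually.of_forall fun _ => norm_nonneg _) ?_ h1
    have h2 : Tendsto (fun k => Real.sqrt (δ k) * q y) atTop (𝓝 (0 * q y)) := hs.mul_const _
    rw [zero_mul] at h2
    filter_upwards [h2.eventually (gt_mem_nhds (show (0 : ℝ) < 1 by norm_num))] with k hk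
    have h3 := key k
    have h4 : ‖B (x k) y - l y‖ ^ 2 ≤ Real.sqrt (δ k) := by
      have := sq_nonneg ‖B (x k) y - l y‖
      nlinarith
    exact Real.le_sqrt_of_sq_le h4
  · have h1 : ∀ᶠ k in atTop, δ k < ε / 4 := hδlim.eventually (gt_mem_nhds (by positivity))
    obtain ⟨K, hK⟩ := eventually_atTop.1 h1
    refine ⟨K, fun j hj k hk => ?_⟩
    have h2 := hpar (x j) (x k)
    have h3 := hx j
    have h4 := hx k
    have h5 := hK j hj
    have h6 := hK k hk
    simp only [hq] at h2
    linarith
  · have h1 : ∀ᶠ k in atTop, δ k < ε / 2 := hδlim.eventually (gt_mem_nhds (by positivity))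
    obtain ⟨K, hK⟩ := eventually_atTop.1 h1
    refine ⟨K, fun k hk => ?_⟩
    have h2 := hx k
    have h3 := hK k hk
    have h4 := hl2 (x k) (2 * C) (q (x k) / 2) (by positivity) (by have := hq0 (x k); positivity)
      (by ring)
    simp only [hJ] at h2
    simp only [hq] at h2 h4 ⊢
    linarith

end SemiForm

end

end Vale.Agent.P298.H826
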