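import Vale.Agent.P298.H826.Apr

/-!
P298, row P1 (helper826): test sections, and the a priori estimate
`|α(0)|² ≤ 9 R² ∫ |D'α|² / |t|²`.
-/

open Complex ComplexConjugate MeasureTheory Filter Topology Metric Set
open scoped ContDiff Matrix

set_option linter.unusedSectionVars false
set_option linter.unusedVariables false

namespace Vale.Agent.P298.H826

noncomputable section

variable {n : ℕ} {h : ℂ → Matrix (Fin n) (Fin n) ℂ} {Ω : Set ℂ} {c : ℝ}

/-- product of a function smooth on an open set with a test function -/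
theorem contDiff_mul_test {k : ℕ∞ω} (hΩ : IsOpen Ω) {f κ : ℂ → ℂ} (hf : ContDiffOn ℝ k f Ω)
    (hκ : ContDiff ℝ k κ) (hκΩ : tsupport κ ⊆ Ω) : ContDiff ℝ k (fun z => f z * κ z) := by
  rw [contDiff_iff_contDiffAt]
  intro z
  by_cases hz : z ∈ Ω
  · exact ((hf z hz).contDiffAt (hΩ.mem_nhds hz)).mul hκ.contDiffAt
  · have h1 : z ∉ tsupport κ := fun h => hz (hκΩ h)
    have h2 : (fun z => f z * κ z) =ᶠ[𝓝 z] fun _ => 0 := by
      filter_upwards [(isClosed_tsupport κ).isOpen_compl.mem_nhds h1] with w hw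
      rw [image_eq_zero_of_notMem_tsupport hw, mul_zero]
    exact contDiffAt_const.congr_of_eventuallyEq h2

theorem contDiffOn_det {k : ℕ∞ω} {A : ℂ → Matrix (Fin n) (Fin n) ℂ}
    (hA : ∀ i j, ContDiffOn ℝ k (fun t => A t i j) Ω) : ContDiffOn ℝ k (fun t => (A t).det) Ω := by
  simp only [Matrix.det_apply]
  refine ContDiffOn.sum fun σ _ => ?_
  refine ContDiffOn.const_smul _ ?_
  exact contDiffOn_prod fun i _ => hA _ _

theorem contDiffOn_adj {k : ℕ∞ω} {A : ℂ → Matrix (Fin n) (Fin n) ℂ}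
    (hA : ∀ i j, ContDiffOn ℝ k (fun t => A t i j) Ω) (i j : Fin n) :
    ContDiffOn ℝ k (fun t => (A t).adjugate i j) Ω := by
  simp only [Matrix.adjugate_apply]
  refine contDiffOn_det fun a b => ?_
  simp only [Matrix.updateRow_apply]
  split_ifs with h1
  · exact contDiffOn_const
  · exact hA a b

namespace Met

variable (H : Met h Ω c) (hc : 0 < c)

include H hc

theorem eq_zero {t : ℂ} (ht : t ∈ Ω) {v : Fin n → ℂ} (hv : h t *ᵥ v = 0) : v = 0 := by
  have h1 := H.coer t ht v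
  rw [S_eq, hv] at h1
  simp only [Pi.zero_apply, mul_zero, Finset.sum_const_zero, zero_re] at h1
  have h2 : ∑ i, ‖v i‖ ^ 2 = 0 := by
    have h3 : 0 ≤ ∑ i, ‖v i‖ ^ 2 := Finset.sum_nonneg fun _ _ => by positivity
    nlinarith
  funext i
  have h3 := (Finset.sum_eq_zero_iff_of_nonneg (fun i _ => by positivity)).1 h2 i (Finset.mem_univ i)
  simpa using h3

theorem det_ne {t : ℂ} (ht : t ∈ Ω) : (h t).det ≠ 0 := by
  intro h0
  obtain ⟨v, hv, hv2⟩ := Matrix.exists_mulVec_eq_zero_iff.2 h0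
  exact hv (H.eq_zero hc ht hv2)

theorem inv_mul {t : ℂ} (ht : t ∈ Ω) (q : Fin n → ℂ) : h t *ᵥ ((h t)⁻¹ *ᵥ q) = q := by
  rw [Matrix.mulVec_mulVec, Matrix.mul_nonsing_inv _ (isUnit_iff_ne_zero.2 (H.det_ne hc ht)),
    Matrix.one_mulVec]

theorem inv_smooth (i j : Fin n) : ContDiffOn ℝ 2 (fun t => (h t)⁻¹ i j) Ω := by
  have h1 : ∀ t, (h t)⁻¹ i j = ((h t).det)⁻¹ * (h t).adjugate i j := by
    intro t
    rw [Matrix.inv_def, Matrix.smul_apply, smul_eq_mul, Ring.inverse_eq_inv']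
  simp only [h1]
  exact (ContDiffOn.inv (contDiffOn_det H.smooth) fun t ht => H.det_ne hc ht).mul
    (contDiffOn_adj H.smooth i j)

/-- Cauchy-Schwarz for the metric -/
theorem cs {s : ℂ} (hs : s ∈ Ω)
    (x y : Fin n → ℂ) : ‖S (h s) x y‖ ^ 2 ≤ (S (h s) x x).re * (S (h s) y y).re := by
  have hherm : (h s)ᴴ = h s := H.herm s hs
  have hpos : ∀ v, 0 ≤ (S (h s) v v).re := fun v =>
    le_trans (mul_nonneg hc.le (Finset.sum_nonneg fun _ _ => by positivity)) (H.coer s hs v)
  have hsym : ∀ a b, S (h s) b a = conj (S (h s) a b) := by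
    intro a b
    rw [conj_S, hherm]
  have hreal : ∀ v, S (h s) v v = ((S (h s) v v).re : ℂ) := by
    intro v
    have := hsym v v
    exact (Complex.conj_eq_iff_real.1 this.symm).elim fun r hr => by rw [hr]; simp
  set z := S (h s) x y with hz
  set X := (S (h s) x x).re with hX
  set Y := (S (h s) y y).re with hY
  -- the quadratic form on `a x + b y`
  have key : ∀ a b : ℂ, 0 ≤ (normSq a) * X + (normSq b) * Y + 2 * (conj a * b * z).re := by
    intro a b
    have h1 := hpos (a • x + b • y)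
    have h2 : S (h s) (a • x + b • y) (a • x + b • y) =
        (conj a * a) * S (h s) x x + conj a * b * z + (conj b * a) * conj z +
          (conj b * b) * S (h s) y y := by
      rw [S_add_left, S_add_right, S_add_right, S_smul_left, S_smul_left, S_smul_left,
        S_smul_left, S_smul_right, S_smul_right, S_smul_right, S_smul_right, hsym x y, hz]
      ring
    have h3 : (conj b * a * conj z).re = (conj a * b * z).re := by
      rw [← conj_re (conj a * b * z)]
      simp only [map_mul, conj_conj]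
      congr 1
      ring
    have h4 : ∀ w : ℂ, conj w * w = (normSq w : ℂ) := fun w => by rw [mul_comm, mul_conj]
    rw [h2] at h1
    simp only [add_re, h3] at h1
    rw [h4, h4, hreal x, hreal y, re_ofReal_mul, re_ofReal_mul, ofReal_re, ofReal_re] at h1
    linarith
  have hz2 : ‖z‖ ^ 2 = normSq z := (Complex.normSq_eq_norm_sq z).symm
  rw [hz2]
  have hX0 : 0 ≤ X := hpos x
  have hY0 : 0 ≤ Y := hpos y
  rcases hX0.eq_or_lt with h0 | h0
  · -- X = 0
    by_contra hlt
    push Not at hlt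
    rw [← h0, zero_mul] at hlt
    have h1 := key (((Y + 1) / normSq z : ℝ) * z) (-1)
    have h2 : (conj ((((Y + 1) / normSq z : ℝ) : ℂ) * z) * (-1) * z).re = -(Y + 1) := by
      have : conj ((((Y + 1) / normSq z : ℝ) : ℂ) * z) * (-1) * z = ((-(Y + 1) : ℝ) : ℂ) := by
        have h4 : conj z * z = (normSq z : ℂ) := by rw [mul_comm, mul_conj]
        have h5 : (normSq z : ℂ) ≠ 0 := by exact_mod_cast hlt.ne'
        rw [map_mul, conj_ofReal]
        calc (((Y + 1) / normSq z : ℝ) : ℂ) * conj z * (-1) * z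
            = -(((Y + 1) / normSq z : ℝ) : ℂ) * (conj z * z) := by ring
          _ = ((-(Y + 1) : ℝ) : ℂ) := by
            rw [h4]
            push_cast
            field_simp
      rw [this, ofReal_re]
    rw [h2, ← h0] at h1
    simp only [mul_zero, zero_add] at h1
    have : normSq (-1 : ℂ) = 1 := by simp
    rw [this] at h1
    linarith
  · have h1 := key (z) (-(X : ℂ))
    have h2 : (conj z * (-(X : ℂ)) * z).re = -X * normSq z := by
      have : conj z * (-(X : ℂ)) * z = ((-X * normSq z : ℝ) : ℂ) := by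
        have h4 : conj z * z = (normSq z : ℂ) := by rw [mul_comm, mul_conj]
        calc conj z * (-(X : ℂ)) * z = (-(X : ℂ)) * (conj z * z) := by ring
          _ = ((-X * normSq z : ℝ) : ℂ) := by
            rw [h4]
            push_cast
            ring
      rw [this, ofReal_re]
    have h3 : normSq (-(X : ℂ)) = X * X := by simp [normSq_neg, normSq_ofReal]
    rw [h2, h3] at h1
    have h4 : 0 ≤ X * (X * Y - normSq z) := by nlinarith
    have h5 := nonneg_of_mul_nonneg_right (a := X) (b := X * Y - normSq z) (by linarith) h0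
    linarith

end Met

/-- test sections -/
structure Tst (Ω : Set ℂ) (α : ℂ → Fin n → ℂ) : Prop where
  smooth : ∀ i, ContDiff ℝ 2 (fun t => α t i)
  comp : HasCompactSupport α
  sub : tsupport α ⊆ Ω

/-- `β = h α` -/
def bb (h : ℂ → Matrix (Fin n) (Fin n) ℂ) (α : ℂ → Fin n → ℂ) (i : Fin n) (r : ℂ) : ℂ :=
  ∑ j, h r i j * α r j

/-- `P = D'α` -/
def PP (h : ℂ → Matrix (Fin n) (Fin n) ℂ) (α : ℂ → Fin n → ℂ) (s : ℂ) : Fin n → ℂ :=
  (h s)⁻¹ *ᵥ qq h α s

/-- `|D'α|²` -/
def NN (h : ℂ → Matrix (Fin n) (Fin n) ℂ) (α : ℂ → Fin n → ℂ) (s : ℂ) : ℝ :=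
  (S (h s) (PP h α s) (PP h α s)).re

namespace Tst

variable {α : ℂ → Fin n → ℂ} (A : Tst Ω α)

include A

theorem tsupport_comp (i : Fin n) : tsupport (fun t => α t i) ⊆ tsupport α := by
  apply closure_mono
  intro t ht h0
  exact ht (by simp [h0])

theorem eq_zero {t : ℂ} (ht : t ∉ tsupport α) : α t = 0 := image_eq_zero_of_notMem_tsupport ht

theorem eventually_zero {t : ℂ} (ht : t ∉ tsupport α) : ∀ᶠ s in 𝓝 t, α s = 0 := by
  filter_upwards [(isClosed_tsupport α).isOpen_compl.mem_nhds ht] with s hs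
  exact A.eq_zero hs

theorem compS {f : ℂ → ℂ} (hf : ∀ t, t ∉ tsupport α → f t = 0) : HasCompactSupport f :=
  HasCompactSupport.intro A.comp hf

theorem bb_smooth (hΩ : IsOpen Ω) (H : Met h Ω c) (i : Fin n) : ContDiff ℝ 2 (bb h α i) := by
  unfold bb
  exact ContDiff.sum fun j _ => contDiff_mul_test hΩ (H.smooth i j) (A.smooth j)
    ((A.tsupport_comp j).trans A.sub)

theorem bb_zero {t : ℂ} (ht : t ∉ tsupport α) (i : Fin n) : bb h α i t = 0 := by
  simp [bb, A.eq_zero ht]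

theorem bb_comp (i : Fin n) : HasCompactSupport (bb h α i) :=
  A.compS fun _ ht => A.bb_zero ht i

omit A in
theorem qq_eq_dz (s : ℂ) (i : Fin n) : qq h α s i = dz (bb h α i) s := rfl

theorem qq_smooth (hΩ : IsOpen Ω) (H : Met h Ω c) (i : Fin n) :
    ContDiff ℝ 1 (fun s => qq h α s i) :=
  contDiff_dz (A.bb_smooth hΩ H i) (by norm_num)

theorem qq_zero {t : ℂ} (ht : t ∉ tsupport α) : qq h α t = 0 := by
  funext i
  rw [qq_eq_dz]
  have e : bb h α i =ᶠ[𝓝 t] fun _ => 0 := by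
    filter_upwards [A.eventually_zero ht] with s hs
    simp [bb, hs]
  rw [dz_congr e, dz_const]
  rfl

theorem qq_comp (i : Fin n) : HasCompactSupport (fun s => qq h α s i) :=
  A.compS fun _ ht => by rw [A.qq_zero ht]; rfl

theorem PP_zero {t : ℂ} (ht : t ∉ tsupport α) : PP h α t = 0 := by
  rw [PP, A.qq_zero ht, Matrix.mulVec_zero]

theorem PP_spec (H : Met h Ω c) (hc : 0 < c) {t : ℂ} (ht : t ∈ Ω) : h t *ᵥ PP h α t = qq h α t :=
  H.inv_mul hc ht _

/-- a function which is continuous on `Ω` and vanishes off the support of `α` is continuous -/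
theorem cont (hΩ : IsOpen Ω) {f : ℂ → ℂ} (hf : ContinuousOn f Ω)
    (hf0 : ∀ t, t ∉ tsupport α → f t = 0) : Continuous f := by
  rw [continuous_iff_continuousAt]
  intro t
  by_cases ht : t ∈ tsupport α
  · exact (hf t (A.sub ht)).continuousAt (hΩ.mem_nhds (A.sub ht))
  · have e : f =ᶠ[𝓝 t] fun _ => 0 := by
      filter_upwards [(isClosed_tsupport α).isOpen_compl.mem_nhds ht] with s hs
      exact hf0 s hs
    exact continuousAt_const.congr e.symm

theorem PP_cont (hΩ : IsOpen Ω) (H : Met h Ω c) (hc : 0 < c) (i : Fin n) :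
    Continuous (fun s => PP h α s i) := by
  refine A.cont hΩ ?_ fun t ht => by rw [A.PP_zero ht]; rfl
  unfold PP Matrix.mulVec dotProduct
  exact continuousOn_finsetSum _ fun j _ => (H.inv_smooth hc i j).continuousOn.mul
    (A.qq_smooth hΩ H j).continuous.continuousOn

theorem uu_eq (s : ℂ) : uu h α s = ∑ i, conj (α s i) * bb h α i s := by
  rw [uu, S_eq]
  rfl

theorem uu_smooth (hΩ : IsOpen Ω) (H : Met h Ω c) : ContDiff ℝ 2 (uu h α) := by
  have e : uu h α = fun s => ∑ i, conj (α s i) * bb h α i s := by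
    funext s
    exact A.uu_eq s
  rw [e]
  refine ContDiff.sum fun i _ => ContDiff.mul ?_ (A.bb_smooth hΩ H i)
  exact contDiff_iff_contDiffAt.2 fun z => contDiffAt_conj (A.smooth i).contDiffAt

theorem uu_zero {t : ℂ} (ht : t ∉ tsupport α) : uu h α t = 0 := by
  rw [A.uu_eq]
  simp [A.eq_zero ht]

theorem uu_comp : HasCompactSupport (uu h α) := A.compS fun _ ht => A.uu_zero ht

theorem ww_smooth (hΩ : IsOpen Ω) (H : Met h Ω c) : ContDiff ℝ 1 (ww h α) := by
  unfold ww
  refine ContDiff.sum fun i _ => ContDiff.mul ?_ (A.qq_smooth hΩ H i)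
  exact contDiff_iff_contDiffAt.2 fun z =>
    contDiffAt_conj (((A.smooth i).of_le (by norm_num)).contDiffAt)

theorem ww_zero {t : ℂ} (ht : t ∉ tsupport α) : ww h α t = 0 := by
  simp [ww, A.eq_zero ht]

theorem ww_comp : HasCompactSupport (ww h α) := A.compS fun _ ht => A.ww_zero ht

/-- inner product of `D'` of two test sections -/
theorem SP_eq (H : Met h Ω c) (hc : 0 < c) (x : Fin n → ℂ) (s : ℂ) (hx : s ∉ tsupport α → x = 0) :
    S (h s) x (PP h α s) = ∑ i, conj (x i) * qq h α s i := by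
  by_cases hs : s ∈ tsupport α
  · rw [S_eq, A.PP_spec H hc (A.sub hs)]
  · rw [hx hs]
    simp [S]

theorem NN_eq (H : Met h Ω c) (hc : 0 < c) (s : ℂ) :
    NN h α s = (∑ i, conj (PP h α s i) * qq h α s i).re := by
  rw [NN, A.SP_eq H hc _ s fun hs => A.PP_zero hs]

theorem NN_zero {t : ℂ} (ht : t ∉ tsupport α) : NN h α t = 0 := by
  rw [NN, A.PP_zero ht]
  simp [S]

theorem NN_cont (hΩ : IsOpen Ω) (H : Met h Ω c) (hc : 0 < c) : Continuous (NN h α) := by
  have e : NN h α = fun s => (∑ i, conj (PP h α s i) * qq h α s i).re := by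
    funext s
    exact A.NN_eq H hc s
  rw [e]
  refine continuous_re.comp (continuous_finsetSum _ fun i _ => ?_)
  exact (continuous_conj.comp (A.PP_cont hΩ H hc i)).mul (A.qq_smooth hΩ H i).continuous

theorem NN_comp : HasCompactSupport (NN h α) :=
  HasCompactSupport.intro A.comp fun _ ht => A.NN_zero ht

theorem NN_coer (H : Met h Ω c) (hc : 0 < c) (s : ℂ) : c * ∑ i, ‖PP h α s i‖ ^ 2 ≤ NN h α s := by
  by_cases hs : s ∈ tsupport α
  · exact H.coer s (A.sub hs) _
  · rw [A.NN_zero hs, A.PP_zero hs]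
    simp

theorem NN_nonneg (H : Met h Ω c) (hc : 0 < c) (s : ℂ) : 0 ≤ NN h α s :=
  le_trans (mul_nonneg hc.le (Finset.sum_nonneg fun _ _ => by positivity)) (A.NN_coer H hc s)

theorem NN_le (H : Met h Ω c) (hc : 0 < c) (s : ℂ) : c * NN h α s ≤ ∑ i, ‖qq h α s i‖ ^ 2 := by
  have h1 : NN h α s ≤ ∑ i, ‖PP h α s i‖ * ‖qq h α s i‖ := by
    rw [A.NN_eq H hc]
    refine (re_le_norm _).trans ((norm_sum_le _ _).trans (le_of_eq ?_))
    exact Finset.sum_congr rfl fun i _ => by rw [norm_mul, RCLike.norm_conj]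
  have h2 : (∑ i, ‖PP h α s i‖ * ‖qq h α s i‖) ^ 2 ≤
      (∑ i, ‖PP h α s i‖ ^ 2) * ∑ i, ‖qq h α s i‖ ^ 2 := Finset.sum_mul_sq_le_sq_mul_sq _ _ _
  have h3 := A.NN_coer H hc s
  have h4 := A.NN_nonneg H hc s
  have h5 : 0 ≤ ∑ i, ‖qq h α s i‖ ^ 2 := Finset.sum_nonneg fun _ _ => by positivity
  rcases h4.eq_or_lt with h6 | h6
  · rw [← h6, mul_zero]
    exact h5
  · have h7 : NN h α s ^ 2 ≤ (∑ i, ‖PP h α s i‖ ^ 2) * ∑ i, ‖qq h α s i‖ ^ 2 :=
      (pow_le_pow_left₀ h4 h1 2).trans h2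
    have h8 : c * NN h α s * NN h α s ≤ NN h α s * ∑ i, ‖qq h α s i‖ ^ 2 := by
      calc c * NN h α s * NN h α s = c * NN h α s ^ 2 := by ring
        _ ≤ c * ((∑ i, ‖PP h α s i‖ ^ 2) * ∑ i, ‖qq h α s i‖ ^ 2) :=
            mul_le_mul_of_nonneg_left h7 hc.le
        _ = (c * ∑ i, ‖PP h α s i‖ ^ 2) * ∑ i, ‖qq h α s i‖ ^ 2 := by ring
        _ ≤ NN h α s * ∑ i, ‖qq h α s i‖ ^ 2 := mul_le_mul_of_nonneg_right h3 h5
    rw [mul_comm (c * NN h α s)] at h8
    exact le_of_mul_le_mul_left h8 h6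

theorem ww_le (H : Met h Ω c) (hc : 0 < c) (s : ℂ) :
    ‖ww h α s‖ ^ 2 ≤ (uu h α s).re * NN h α s := by
  by_cases hs : s ∈ tsupport α
  · have h1 := H.cs hc (A.sub hs) (α s) (PP h α s)
    rw [A.SP_eq H hc (α s) s fun hs' => absurd hs hs'] at h1
    exact h1
  · rw [A.ww_zero hs, A.NN_zero hs]
    simp

theorem uu_nonneg (H : Met h Ω c) (hc : 0 < c) (s : ℂ) : 0 ≤ (uu h α s).re := by
  by_cases hs : s ∈ tsupport α
  · exact le_trans (mul_nonneg hc.le (Finset.sum_nonneg fun _ _ => by positivity))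
      (H.coer s (A.sub hs) _)
  · rw [A.uu_zero hs]
    simp

end Tst

end

end Vale.Agent.P298.H826
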