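import Vale.Agent.P298.H826.Wirt

/-!
P298, row P1 (helper826): the Weyl lemma for `∂̄` in one variable, with explicit representative
`F t = ∫ G y ρ_δ (y - t)`.
-/

open Complex ComplexConjugate MeasureTheory Filter Topology Metric Set
open scoped ContDiff Convolution

set_option linter.unusedSectionVars false
set_option linter.unusedVariables false

namespace Vale.Agent.P298.H826

noncomputable section

theorem two_le_inf : (2 : ℕ∞ω) ≤ ∞ := by
  change ((2 : ℕ∞) : ℕ∞ω) ≤ ((⊤ : ℕ∞) : ℕ∞ω)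
  exact WithTop.coe_le_coe.2 le_top

/-- cut-off profile: `1` for `y ≤ 1/4`, `0` for `y ≥ 1` -/
def cut (y : ℝ) : ℝ := Real.smoothTransition (4 / 3 * (1 - y))

theorem cut_smooth : ContDiff ℝ ∞ cut :=
  Real.smoothTransition.contDiff.comp (contDiff_const.mul (contDiff_const.sub contDiff_id))

theorem cut_one {y : ℝ} (hy : y ≤ 1 / 4) : cut y = 1 :=
  Real.smoothTransition.one_of_one_le (by linarith)

theorem cut_zero {y : ℝ} (hy : 1 ≤ y) : cut y = 0 :=
  Real.smoothTransition.zero_of_nonpos (by linarith)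

theorem cut_hasDeriv (y : ℝ) : HasDerivAt cut (deriv cut y) y :=
  (cut_smooth.differentiable (by simp) y).hasDerivAt

theorem dcut_smooth : ContDiff ℝ ∞ (deriv cut) := by
  have h := cut_smooth
  rw [show (∞ : ℕ∞ω) = ∞ + 1 from rfl] at h
  exact (contDiff_succ_iff_deriv.1 h).2.2

theorem dcut_zero_left {y : ℝ} (hy : y < 1 / 4) : deriv cut y = 0 := by
  have e : cut =ᶠ[𝓝 y] fun _ => 1 := by
    filter_upwards [Iio_mem_nhds hy] with x hx
    exact cut_one (le_of_lt hx)
  rw [e.deriv_eq, deriv_const]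

theorem dcut_zero_right {y : ℝ} (hy : 1 ≤ y) : deriv cut y = 0 := by
  rcases hy.eq_or_lt with h | h
  · have h1 : deriv cut y = 0 := by
      have h2 : IsLocalMin cut y := by
        rw [← h]
        refine Eventually.of_forall fun x => ?_
        rw [cut_zero le_rfl]
        exact Real.smoothTransition.nonneg _
      exact h2.deriv_eq_zero
    exact h1
  · have e : cut =ᶠ[𝓝 y] fun _ => 0 := by
      filter_upwards [Ioi_mem_nhds h] with x hx
      exact cut_zero (le_of_lt hx)
    rw [e.deriv_eq, deriv_const]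

theorem dcut_bdd : ∃ M : ℝ, 0 < M ∧ ∀ y, |deriv cut y| ≤ M := by
  have h1 : Continuous (deriv cut) := dcut_smooth.continuous
  have h2 : HasCompactSupport (deriv cut) := by
    refine HasCompactSupport.intro (isCompact_Icc (a := (1 / 4 : ℝ)) (b := 1)) fun y hy => ?_
    by_cases h3 : y < 1 / 4
    · exact dcut_zero_left h3
    · refine dcut_zero_right ?_
      by_contra h4
      exact hy ⟨by linarith, by linarith⟩
  obtain ⟨M, hM⟩ := h2.exists_bound_of_continuous h1
  refine ⟨|M| + 1, by positivity, fun y => (hM y).trans ?_⟩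
  linarith [le_abs_self M]

/-- the cut-off function `X_δ` on `ℂ` -/
def cutC (δ : ℝ) (s : ℂ) : ℝ := cut (normSq s / δ ^ 2)

/-- the mollifier -/
def rho (δ : ℝ) (s : ℂ) : ℝ := -(deriv cut (normSq s / δ ^ 2) / δ ^ 2) / Real.pi

theorem normSq_smooth' {m : ℕ∞ω} : ContDiff ℝ m (fun s : ℂ => normSq s) := by
  have e : (fun s : ℂ => normSq s) = fun s => ‖s‖ ^ 2 := by
    funext s
    exact Complex.normSq_eq_norm_sq s
  rw [e]
  exact contDiff_norm_sq ℝ

theorem cutC_smooth (δ : ℝ) : ContDiff ℝ ∞ (cutC δ) :=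
  cut_smooth.comp (normSq_smooth'.div_const _)

theorem rho_smooth (δ : ℝ) : ContDiff ℝ ∞ (rho δ) := by
  unfold rho
  exact (((dcut_smooth.comp (normSq_smooth'.div_const _)).div_const _).neg).div_const _

theorem normSq_div_ge {δ : ℝ} (hδ : 0 < δ) {s : ℂ} (hs : δ ≤ ‖s‖) : 1 ≤ normSq s / δ ^ 2 := by
  rw [le_div_iff₀ (by positivity), one_mul, Complex.normSq_eq_norm_sq]
  exact pow_le_pow_left₀ hδ.le hs 2

theorem normSq_div_lt {δ : ℝ} (hδ : 0 < δ) {s : ℂ} (hs : ‖s‖ < δ / 2) :
    normSq s / δ ^ 2 < 1 / 4 := by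
  rw [div_lt_iff₀ (by positivity), Complex.normSq_eq_norm_sq]
  have := norm_nonneg s
  nlinarith

theorem rho_zero {δ : ℝ} (hδ : 0 < δ) {s : ℂ} (hs : δ ≤ ‖s‖) : rho δ s = 0 := by
  rw [rho, dcut_zero_right (normSq_div_ge hδ hs)]
  simp

theorem rho_zero' {δ : ℝ} (hδ : 0 < δ) {s : ℂ} (hs : ‖s‖ < δ / 2) : rho δ s = 0 := by
  rw [rho, dcut_zero_left (normSq_div_lt hδ hs)]
  simp

theorem cutC_zero {δ : ℝ} (hδ : 0 < δ) {s : ℂ} (hs : δ ≤ ‖s‖) : cutC δ s = 0 :=
  cut_zero (normSq_div_ge hδ hs)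

theorem cutC_one {δ : ℝ} (hδ : 0 < δ) {s : ℂ} (hs : ‖s‖ < δ / 2) : cutC δ s = 1 :=
  cut_one (normSq_div_lt hδ hs).le

theorem tsupport_subset_of {E : Type*} [Zero E] {f : ℂ → E} {δ : ℝ} {t : ℂ}
    (h : ∀ s, δ ≤ ‖s - t‖ → f s = 0) :
    tsupport f ⊆ closedBall t δ := by
  apply closure_minimal _ isClosed_closedBall
  intro s hs
  rw [mem_closedBall, dist_eq_norm]
  by_contra h1
  exact hs (h s (by linarith))

theorem rho_tsupport {δ : ℝ} (hδ : 0 < δ) : tsupport (rho δ) ⊆ closedBall 0 δ :=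
  tsupport_subset_of fun s hs => rho_zero hδ (by simpa using hs)

theorem rho_comp {δ : ℝ} (hδ : 0 < δ) : HasCompactSupport (rho δ) :=
  HasCompactSupport.of_support_subset_isCompact (isCompact_closedBall 0 δ)
    ((subset_tsupport _).trans (rho_tsupport hδ))

theorem rho_neg (δ : ℝ) (s : ℂ) : rho δ (-s) = rho δ s := by
  rw [rho, rho, normSq_neg]

theorem dzb_cutC {δ : ℝ} (hδ : 0 < δ) (s : ℂ) :
    dzb (fun s => (cutC δ s : ℂ)) s = -(Real.pi : ℂ) * (rho δ s : ℂ) * s := by
  have h1 : HasDerivAt (fun y : ℝ => cut (y / δ ^ 2)) (deriv cut (normSq s / δ ^ 2) / δ ^ 2) (normSq s) := by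
    have h2 : HasDerivAt (fun y : ℝ => y / δ ^ 2) (1 / δ ^ 2) (normSq s) :=
      (hasDerivAt_id (normSq s)).div_const (δ ^ 2)
    have h3 := (cut_hasDeriv (normSq s / δ ^ 2)).comp (normSq s) h2
    refine h3.congr_deriv ?_
    ring
  have h2 := dzb_radial h1
  have e : (fun s : ℂ => ((cut (normSq s / δ ^ 2) : ℝ) : ℂ)) = fun s => (cutC δ s : ℂ) := rfl
  rw [e] at h2
  rw [h2, rho]
  have hpi : (Real.pi : ℂ) ≠ 0 := by exact_mod_cast Real.pi_ne_zero
  push_cast
  field_simp

theorem rho_bound : ∃ M : ℝ, 0 < M ∧ ∀ δ > 0, ∀ s, |rho δ s| ≤ M / δ ^ 2 := by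
  obtain ⟨M, hM, h⟩ := dcut_bdd
  refine ⟨M / Real.pi, div_pos hM Real.pi_pos, fun δ hδ s => ?_⟩
  have h1 : |rho δ s| = |deriv cut (normSq s / δ ^ 2)| / δ ^ 2 / Real.pi := by
    rw [rho, abs_div, abs_neg, abs_div, abs_of_pos Real.pi_pos, abs_of_pos (by positivity : 0 < δ ^ 2)]
  rw [h1, div_right_comm M]
  gcongr
  exact h _

theorem integral_rho {δ : ℝ} (hδ : 0 < δ) : ∫ s : ℂ, rho δ s = 1 := by
  have e1 : (fun s : ℂ => rho δ s) =
      fun s => (fun y : ℝ => -(deriv cut (y ^ 2 / δ ^ 2) / δ ^ 2) / Real.pi) ‖s‖ := by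
    funext s
    simp only [rho, Complex.normSq_eq_norm_sq]
  rw [e1, integral_fun_norm_addHaar (μ := (volume : Measure ℂ))
    (fun y : ℝ => -(deriv cut (y ^ 2 / δ ^ 2) / δ ^ 2) / Real.pi)]
  rw [Complex.finrank_real_complex, measureReal_def, Complex.volume_ball]
  have e2 : (fun y : ℝ => y ^ (2 - 1) • (-(deriv cut (y ^ 2 / δ ^ 2) / δ ^ 2) / Real.pi)) =
      fun y => (-(2 * Real.pi)⁻¹) * deriv (fun y : ℝ => cut (y ^ 2 / δ ^ 2)) y := by
    funext y
    have h2 : HasDerivAt (fun y : ℝ => y ^ 2 / δ ^ 2) (2 * y / δ ^ 2) y := by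
      have := (hasDerivAt_pow 2 y).div_const (δ ^ 2)
      refine this.congr_deriv ?_
      norm_num
    have h3 : HasDerivAt (fun y : ℝ => cut (y ^ 2 / δ ^ 2))
        (deriv cut (y ^ 2 / δ ^ 2) * (2 * y / δ ^ 2)) y :=
      HasDerivAt.comp (h₂ := cut) (h := fun y : ℝ => y ^ 2 / δ ^ 2) y
        (cut_hasDeriv (y ^ 2 / δ ^ 2)) h2
    rw [h3.deriv]
    have := Real.pi_ne_zero
    simp only [smul_eq_mul, Nat.reduceSub, pow_one]
    field_simp
  rw [e2, integral_const_mul]
  have hsm : ContDiff ℝ 1 (fun y : ℝ => cut (y ^ 2 / δ ^ 2)) :=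
    (cut_smooth.of_le (by simp)).comp ((contDiff_id.pow 2).div_const _)
  have hcs : HasCompactSupport (fun y : ℝ => cut (y ^ 2 / δ ^ 2)) := by
    refine HasCompactSupport.intro (isCompact_Icc (a := -δ) (b := δ)) fun y hy => ?_
    refine cut_zero ?_
    rw [le_div_iff₀ (by positivity), one_mul]
    have h1 : δ < |y| := by
      by_contra h2
      push Not at h2
      exact hy (abs_le.1 h2)
    calc δ ^ 2 ≤ |y| ^ 2 := pow_le_pow_left₀ hδ.le h1.le 2
      _ = y ^ 2 := sq_abs y
  rw [HasCompactSupport.integral_Ioi_deriv_eq hsm hcs 0]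
  have h0 : cut ((0 : ℝ) ^ 2 / δ ^ 2) = 1 := cut_one (by norm_num)
  rw [h0]
  have := Real.pi_ne_zero
  simp only [ENNReal.ofReal_one, one_pow, one_mul, ENNReal.coe_toReal, NNReal.coe_real_pi,
    smul_eq_mul, nsmul_eq_mul]
  push_cast
  field_simp

section Weyl

variable {Ω : Set ℂ} {G : ℂ → ℂ}

/-- weak holomorphy on `Ω` -/
def WeakHol (G : ℂ → ℂ) (Ω : Set ℂ) : Prop :=
  ∀ ψ : ℂ → ℂ, ContDiff ℝ 2 ψ → HasCompactSupport ψ → tsupport ψ ⊆ Ω → ∫ y, G y * dzb ψ y = 0

/-- the regularization -/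
def reg (G : ℂ → ℂ) (δ : ℝ) (t : ℂ) : ℂ := ∫ y, G y * (rho δ (y - t) : ℂ)

theorem rho_shift_comp {δ : ℝ} (hδ : 0 < δ) (t : ℂ) :
    HasCompactSupport (fun y => (rho δ (y - t) : ℂ)) := by
  refine HasCompactSupport.intro (isCompact_closedBall t δ) fun s hs => ?_
  rw [rho_zero hδ, ofReal_zero]
  by_contra h1
  apply hs
  rw [mem_closedBall, dist_eq_norm]
  linarith

theorem rho_shift_cont (δ : ℝ) (t : ℂ) : Continuous (fun y => (rho δ (y - t) : ℂ)) := by
  have := (rho_smooth δ).continuous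
  fun_prop

theorem reg_integrable (hG : LocallyIntegrable G) {δ : ℝ} (hδ : 0 < δ) (t : ℂ) :
    Integrable fun y => G y * (rho δ (y - t) : ℂ) := by
  have := hG.integrable_smul_right_of_hasCompactSupport (rho_shift_cont δ t) (rho_shift_comp hδ t)
  simpa only [smul_eq_mul] using this

/-- independence of the radius -/
theorem reg_indep (hG : LocallyIntegrable G) (hw : WeakHol G Ω) {δ δ' : ℝ} (hδ : 0 < δ)
    (hδ' : 0 < δ') {t : ℂ} (ht : closedBall t δ ⊆ Ω) (ht' : closedBall t δ' ⊆ Ω) :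
    reg G δ t = reg G δ' t := by
  set ν : ℂ → ℂ := fun y => (cutC δ (y - t) : ℂ) - (cutC δ' (y - t) : ℂ) with hν
  have hνs : ContDiff ℝ ∞ ν := by
    have a1 : ContDiff ℝ ∞ (fun y : ℂ => y - t) := contDiff_id.sub contDiff_const
    exact (ofRealCLM.contDiff.comp ((cutC_smooth δ).comp a1)).sub
      (ofRealCLM.contDiff.comp ((cutC_smooth δ').comp a1))
  have hν0 : ∀ᶠ y in 𝓝 t, ν y = 0 := by
    filter_upwards [ball_mem_nhds t (half_pos (lt_min hδ hδ'))] with y hy
    rw [mem_ball, dist_eq_norm] at hy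
    have h1 : ‖y - t‖ < δ / 2 := hy.trans_le (by linarith [min_le_left δ δ'])
    have h2 : ‖y - t‖ < δ' / 2 := hy.trans_le (by linarith [min_le_right δ δ'])
    simp [hν, cutC_one hδ h1, cutC_one hδ' h2]
  set ψ : ℂ → ℂ := fun y => ν y * (y - t)⁻¹ with hψ
  have hψs : ContDiff ℝ 2 ψ := by
    rw [contDiff_iff_contDiffAt]
    intro y
    by_cases hy : y = t
    · rw [hy]
      have e : ψ =ᶠ[𝓝 t] fun _ => 0 := by
        filter_upwards [hν0] with z hz
        simp [hψ, hz]
      exact contDiffAt_const.congr_of_eventuallyEq e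
    · have h1 : ContDiffAt ℝ 2 (fun y : ℂ => y - t) y := contDiffAt_id.sub contDiffAt_const
      exact ((hνs.of_le two_le_inf).contDiffAt).mul (h1.inv (sub_ne_zero.2 hy))
  have hsupp : ∀ s, max δ δ' ≤ ‖s - t‖ → ψ s = 0 := by
    intro s hs
    simp [hψ, hν, cutC_zero hδ ((le_max_left _ _).trans hs), cutC_zero hδ' ((le_max_right _ _).trans hs)]
  have hmax : closedBall t (max δ δ') ⊆ Ω := by
    rcases max_choice δ δ' with h1 | h1
    · rw [h1]; exact ht
    · rw [h1]; exact ht'
  have hts := tsupport_subset_of hsupp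
  have hcs : HasCompactSupport ψ :=
    HasCompactSupport.of_support_subset_isCompact (isCompact_closedBall t (max δ δ'))
      ((subset_tsupport _).trans hts)
  have h0 := hw ψ hψs hcs (hts.trans hmax)
  have hd : ∀ y, dzb ψ y = -(Real.pi : ℂ) * ((rho δ (y - t) : ℂ) - (rho δ' (y - t) : ℂ)) := by
    intro y
    by_cases hy : y = t
    · rw [hy]
      have e : ψ =ᶠ[𝓝 t] fun _ => 0 := by
        filter_upwards [hν0] with z hz
        simp [hψ, hz]
      rw [dzb_congr e, dzb_const, sub_self, rho_zero' hδ (by simpa using hδ),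
        rho_zero' hδ' (by simpa using hδ')]
      simp
    · have hy' : y - t ≠ 0 := sub_ne_zero.2 hy
      have d1 : DifferentiableAt ℝ ν y := hνs.differentiable (by simp) y
      have d2 : DifferentiableAt ℂ (fun y : ℂ => (y - t)⁻¹) y :=
        (differentiableAt_id.sub_const t).inv hy'
      have d3 : ∀ δ : ℝ, DifferentiableAt ℝ (fun y => (cutC δ (y - t) : ℂ)) y := by
        intro δ
        have a1 : ContDiff ℝ ∞ (fun y : ℂ => y - t) := contDiff_id.sub contDiff_const
        exact (ofRealCLM.contDiff.comp ((cutC_smooth δ).comp a1)).differentiable (by simp) y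
      have d4 : ∀ δ : ℝ, 0 < δ → dzb (fun y => (cutC δ (y - t) : ℂ)) y =
          -(Real.pi : ℂ) * (rho δ (y - t) : ℂ) * (y - t) := by
        intro δ hδ
        rw [← dzb_cutC hδ (y - t)]
        simp only [dzb]
        rw [fderiv_comp_sub (f := fun s => (cutC δ s : ℂ))]
      have d5 : dzb ν y = -(Real.pi : ℂ) * ((rho δ (y - t) : ℂ) - (rho δ' (y - t) : ℂ)) * (y - t) := by
        have e : ν = fun y => (cutC δ (y - t) : ℂ) + (-1) * (cutC δ' (y - t) : ℂ) := by
          funext y
          simp only [hν]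
          ring
        rw [e, dzb_add (d3 δ) ((d3 δ').const_mul (-1)), dzb_const_mul (-1) (d3 δ'), d4 δ hδ, d4 δ' hδ']
        ring
      rw [hψ, dzb_mul d1 (d2.restrictScalars ℝ), dzb_of_hol d2, d5, mul_zero, add_zero, mul_assoc,
        mul_inv_cancel₀ hy', mul_one]
  simp only [hd] at h0
  have e : ∀ y, G y * (-(Real.pi : ℂ) * ((rho δ (y - t) : ℂ) - (rho δ' (y - t) : ℂ))) =
      -(Real.pi : ℂ) * (G y * (rho δ (y - t) : ℂ) - G y * (rho δ' (y - t) : ℂ)) := fun y => by ring
  simp only [e] at h0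
  rw [integral_const_mul, integral_sub (reg_integrable hG hδ t) (reg_integrable hG hδ' t)] at h0
  have hpi : -(Real.pi : ℂ) ≠ 0 := by
    rw [neg_ne_zero]
    exact_mod_cast Real.pi_ne_zero
  have := (mul_eq_zero.1 h0).resolve_left hpi
  exact sub_eq_zero.1 this

/-- holomorphy of the regularization -/
theorem reg_hol (hG : LocallyIntegrable G) (hw : WeakHol G Ω) {δ : ℝ} (hδ : 0 < δ)
    {t : ℂ} (ht : closedBall t δ ⊆ Ω) : DifferentiableAt ℂ (reg G δ) t := by
  set κ : ℂ → ℂ := fun s => (rho δ s : ℂ) with hκ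
  have hκs : ContDiff ℝ ∞ κ := ofRealCLM.contDiff.comp (rho_smooth δ)
  have hκ1 : ContDiff ℝ 1 κ := hκs.of_le (by simp)
  have hκc : HasCompactSupport κ := (rho_comp hδ).comp_left (g := fun r : ℝ => (r : ℂ)) (by simp)
  set L : ℂ →L[ℝ] ℂ →L[ℝ] ℂ := ContinuousLinearMap.mul ℝ ℂ with hL
  have hconv : reg G δ = G ⋆[L, volume] κ := by
    funext x
    rw [convolution_def, reg]
    congr 1
    funext y
    simp only [hL, hκ, ContinuousLinearMap.mul_apply']
    rw [← rho_neg, neg_sub]
  have hfd : HasFDerivAt (reg G δ) ((G ⋆[L.precompR ℂ, volume] fderiv ℝ κ) t) t := by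
    rw [hconv]
    exact hκc.hasFDerivAt_convolution_right L hG hκ1 t
  have hv : ∀ v, fderiv ℝ (reg G δ) t v = ∫ y, G y * fderiv ℝ κ (t - y) v := by
    intro v
    rw [hfd.fderiv, convolution_precompR_apply L hG (hκc.fderiv ℝ)
      (hκ1.continuous_fderiv one_ne_zero), convolution_def]
    rfl
  have hint : ∀ v, Integrable (fun y => G y * fderiv ℝ κ (t - y) v) := by
    intro v
    have h1 : Continuous fun y => fderiv ℝ κ (t - y) v := by
      have h1 := hκ1.continuous_fderiv one_ne_zero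
      exact (h1.comp (continuous_const.sub continuous_id)).clm_apply continuous_const
    have h2 : HasCompactSupport (fun y => fderiv ℝ κ (t - y) v) := by
      refine HasCompactSupport.intro (isCompact_closedBall t δ) fun y hy => ?_
      have h3 : t - y ∉ tsupport κ := by
        intro h4
        have h5 : tsupport κ ⊆ closedBall 0 δ := tsupport_subset_of fun s hs => by
          simp only [hκ]
          rw [rho_zero hδ (by simpa using hs), ofReal_zero]
        have h6 := h5 h4
        rw [mem_closedBall, dist_zero_right] at h6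
        apply hy
        rw [mem_closedBall, dist_comm, dist_eq_norm]
        exact h6
      have h4 : κ =ᶠ[𝓝 (t - y)] fun _ => 0 := by
        filter_upwards [(isClosed_tsupport κ).isOpen_compl.mem_nhds h3] with w hw
        exact image_eq_zero_of_notMem_tsupport hw
      rw [h4.fderiv_eq]
      simp
    have := hG.integrable_smul_right_of_hasCompactSupport h1 h2
    simpa only [smul_eq_mul] using this
  refine hol_of_dzb hfd.differentiableAt ?_
  -- the test function `y ↦ κ (t - y)`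
  have hψs : ContDiff ℝ 2 (fun y => κ (t - y)) :=
    (hκs.of_le two_le_inf).comp (contDiff_const.sub contDiff_id)
  have hts : tsupport (fun y => κ (t - y)) ⊆ closedBall t δ := by
    refine tsupport_subset_of fun s hs => ?_
    simp only [hκ]
    rw [rho_zero hδ (by rw [norm_sub_rev]; exact hs), ofReal_zero]
  have hcs : HasCompactSupport (fun y => κ (t - y)) :=
    HasCompactSupport.of_support_subset_isCompact (isCompact_closedBall t δ)
      ((subset_tsupport _).trans hts)
  have h0 := hw _ hψs hcs (hts.trans ht)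
  have hd : ∀ y, dzb (fun y => κ (t - y)) y = -((fderiv ℝ κ (t - y) 1 + I * fderiv ℝ κ (t - y) I) / 2) := by
    intro y
    have h1 : HasFDerivAt (fun y : ℂ => t - y) (-ContinuousLinearMap.id ℝ ℂ) y :=
      (hasFDerivAt_id y).const_sub t
    have h2 : HasFDerivAt (fun y => κ (t - y)) ((fderiv ℝ κ (t - y)).comp (-ContinuousLinearMap.id ℝ ℂ)) y :=
      (hκ1.differentiable one_ne_zero (t - y)).hasFDerivAt.comp y h1
    rw [dzb, h2.fderiv]
    simp
    ring
  simp only [hd] at h0
  rw [dzb, hv, hv, ← integral_const_mul, ← integral_add (hint 1) ((hint I).const_mul I),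
    ← integral_div]
  have h1 : ∀ y, G y * -((fderiv ℝ κ (t - y) 1 + I * fderiv ℝ κ (t - y) I) / 2) =
      -((G y * fderiv ℝ κ (t - y) 1 + I * (G y * fderiv ℝ κ (t - y) I)) / 2) := fun y => by ring
  simp only [h1] at h0
  rw [integral_neg, neg_eq_zero] at h0
  exact h0

/-- convergence at Lebesgue points -/
theorem reg_tendsto (hG : LocallyIntegrable G) :
    ∀ᵐ t : ℂ, Tendsto (fun δ : ℝ => reg G δ t) (𝓝[>] 0) (𝓝 (G t)) := by
  obtain ⟨M, hM, hρ⟩ := rho_bound
  filter_upwards [IsUnifLocDoublingMeasure.ae_tendsto_average_norm_sub volume hG 1] with t ht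
  have h1 := ht (l := 𝓝[>] (0 : ℝ)) (fun _ => t) (fun δ => δ) tendsto_id (by
    filter_upwards [self_mem_nhdsWithin] with δ hδ
    rw [one_mul]
    exact mem_closedBall_self (le_of_lt hδ))
  rw [tendsto_iff_norm_sub_tendsto_zero]
  have h2 : Tendsto (fun δ : ℝ => (M * Real.pi) * ⨍ y in closedBall t δ, ‖G y - G t‖) (𝓝[>] 0)
      (𝓝 ((M * Real.pi) * 0)) := h1.const_mul _
  rw [mul_zero] at h2
  refine squeeze_zero' (Eventually.of_forall fun _ => norm_nonneg _) ?_ h2
  filter_upwards [self_mem_nhdsWithin] with δ hδ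
  have hδ : 0 < δ := hδ
  have hint := reg_integrable hG hδ t
  have hconst : Integrable fun y : ℂ => G t * (rho δ (y - t) : ℂ) :=
    ((rho_shift_cont δ t).integrable_of_hasCompactSupport (rho_shift_comp hδ t)).const_mul _
  have e1 : ∫ y : ℂ, G t * (rho δ (y - t) : ℂ) = G t := by
    rw [integral_const_mul, integral_complex_ofReal, integral_sub_right_eq_self (fun y => rho δ y) t,
      integral_rho hδ]
    simp
  have e2 : reg G δ t - G t = ∫ y, (G y - G t) * (rho δ (y - t) : ℂ) := by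
    conv_lhs => rw [← e1]
    rw [reg, ← integral_sub hint hconst]
    congr 1
    funext y
    ring
  have e3 : ∫ y, (G y - G t) * (rho δ (y - t) : ℂ) =
      ∫ y in closedBall t δ, (G y - G t) * (rho δ (y - t) : ℂ) := by
    symm
    apply setIntegral_eq_integral_of_forall_compl_eq_zero
    intro y hy
    rw [rho_zero hδ, ofReal_zero, mul_zero]
    by_contra h3
    apply hy
    rw [mem_closedBall, dist_eq_norm]
    linarith
  have hfin : volume (closedBall t δ) ≠ ⊤ := measure_closedBall_lt_top.ne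
  have hi : IntegrableOn (fun y => ‖G y - G t‖) (closedBall t δ) := by
    have h4 : IntegrableOn G (closedBall t δ) := hG.integrableOn_isCompact (isCompact_closedBall t δ)
    have h5 : IntegrableOn (fun _ : ℂ => G t) (closedBall t δ) :=
      (integrableOn_const_iff (C := G t)).2 (Or.inr measure_closedBall_lt_top)
    exact (h4.sub h5).norm
  rw [e2, e3]
  calc ‖∫ y in closedBall t δ, (G y - G t) * (rho δ (y - t) : ℂ)‖
      ≤ ∫ y in closedBall t δ, ‖(G y - G t) * (rho δ (y - t) : ℂ)‖ := norm_integral_le_integral_norm _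
    _ ≤ ∫ y in closedBall t δ, M / δ ^ 2 * ‖G y - G t‖ := by
        refine integral_mono_of_nonneg (Eventually.of_forall fun _ => norm_nonneg _)
          (hi.const_mul _) (Eventually.of_forall fun y => ?_)
        simp only
        rw [norm_mul, mul_comm, norm_real, Real.norm_eq_abs]
        exact mul_le_mul_of_nonneg_right (hρ δ hδ _) (norm_nonneg _)
    _ = (M * Real.pi) * ⨍ y in closedBall t δ, ‖G y - G t‖ := by
        rw [integral_const_mul, setAverage_eq, measureReal_def, Complex.volume_closedBall]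
        simp only [ENNReal.toReal_mul, ENNReal.toReal_pow, ENNReal.coe_toReal, NNReal.coe_real_pi,
          smul_eq_mul]
        rw [ENNReal.toReal_ofReal hδ.le]
        have := Real.pi_ne_zero
        field_simp

/-- **Weyl lemma.** The function `F t = reg G δ t` (any small `δ`) is holomorphic on `Ω` and equals
`G` almost everywhere on `Ω`. -/
theorem weyl (hΩ : IsOpen Ω) (hG : LocallyIntegrable G) (hw : WeakHol G Ω) :
    ∃ F : ℂ → ℂ, DifferentiableOn ℂ F Ω ∧ (∀ᵐ t : ℂ, t ∈ Ω → G t = F t) ∧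
      ∀ t ∈ Ω, ∀ δ > 0, closedBall t δ ⊆ Ω → F t = reg G δ t := by
  classical
  have hex : ∀ t ∈ Ω, ∃ δ > 0, closedBall t δ ⊆ Ω := fun t ht =>
    Metric.nhds_basis_closedBall.mem_iff.1 (hΩ.mem_nhds ht)
  choose! d hd hdΩ using hex
  refine ⟨fun t => reg G (d t) t, ?_, ?_, ?_⟩
  · intro t ht
    -- near `t` use the fixed radius `d t / 2`
    have hdt := hd t ht
    have h1 : (fun s => reg G (d s) s) =ᶠ[𝓝 t] reg G (d t / 2) := by
      filter_upwards [ball_mem_nhds t (half_pos hdt)] with s hs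
      have hsΩ : s ∈ Ω := hdΩ t ht (ball_subset_closedBall (ball_subset_ball (by linarith) hs))
      refine reg_indep hG hw (hd s hsΩ) (half_pos hdt) (hdΩ s hsΩ) ?_
      refine (closedBall_subset_closedBall' ?_).trans (hdΩ t ht)
      rw [mem_ball] at hs
      linarith
    have h2 := reg_hol hG hw (half_pos hdt) (t := t)
      ((closedBall_subset_closedBall (by linarith)).trans (hdΩ t ht))
    exact (h2.congr_of_eventuallyEq h1).differentiableWithinAt
  · filter_upwards [reg_tendsto hG] with t ht htΩ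
    refine tendsto_nhds_unique ht ?_
    refine (tendsto_const_nhds (x := reg G (d t) t)).congr' ?_
    filter_upwards [Ioo_mem_nhdsGT (hd t htΩ)] with δ hδ
    exact reg_indep hG hw (hd t htΩ) hδ.1 (hdΩ t htΩ)
      ((closedBall_subset_closedBall hδ.2.le).trans (hdΩ t htΩ))
  · intro t ht δ hδ hδΩ
    exact reg_indep hG hw (hd t ht) hδ (hdΩ t ht) hδΩ

end Weyl

end

end Vale.Agent.P298.H826
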