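import Mathlib

/-!
P298, row P1 (helper826): Wirtinger calculus for functions of one complex variable.
-/

open Complex ComplexConjugate MeasureTheory Filter Topology Metric Set
open scoped ContDiff

namespace Vale.Agent.P298.H826

noncomputable section

/-- The Wirtinger derivative `∂/∂z`. -/
def dz (f : ℂ → ℂ) (z : ℂ) : ℂ := (fderiv ℝ f z 1 - I * fderiv ℝ f z I) / 2

/-- The Wirtinger derivative `∂/∂z̄`. -/
def dzb (f : ℂ → ℂ) (z : ℂ) : ℂ := (fderiv ℝ f z 1 + I * fderiv ℝ f z I) / 2

section Basic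

variable {f g k : ℂ → ℂ} {z : ℂ}

theorem dz_congr (h : f =ᶠ[𝓝 z] g) : dz f z = dz g z := by rw [dz, dz, h.fderiv_eq]

theorem dzb_congr (h : f =ᶠ[𝓝 z] g) : dzb f z = dzb g z := by rw [dzb, dzb, h.fderiv_eq]

theorem dz_const (c : ℂ) : dz (fun _ => c) z = 0 := by simp [dz]

theorem dzb_const (c : ℂ) : dzb (fun _ => c) z = 0 := by simp [dzb]

theorem dz_add (hf : DifferentiableAt ℝ f z) (hg : DifferentiableAt ℝ g z) :
    dz (fun z => f z + g z) z = dz f z + dz g z := by
  simp only [dz, fderiv_fun_add hf hg, add_apply]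
  ring

theorem dzb_add (hf : DifferentiableAt ℝ f z) (hg : DifferentiableAt ℝ g z) :
    dzb (fun z => f z + g z) z = dzb f z + dzb g z := by
  simp only [dzb, fderiv_fun_add hf hg, add_apply]
  ring

theorem dz_mul (hf : DifferentiableAt ℝ f z) (hg : DifferentiableAt ℝ g z) :
    dz (fun z => f z * g z) z = dz f z * g z + f z * dz g z := by
  simp only [dz, fderiv_fun_mul hf hg, add_apply,
    smul_apply, smul_eq_mul]
  ring

theorem dzb_mul (hf : DifferentiableAt ℝ f z) (hg : DifferentiableAt ℝ g z) :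
    dzb (fun z => f z * g z) z = dzb f z * g z + f z * dzb g z := by
  simp only [dzb, fderiv_fun_mul hf hg, add_apply,
    smul_apply, smul_eq_mul]
  ring

theorem dz_const_mul (c : ℂ) (hf : DifferentiableAt ℝ f z) :
    dz (fun z => c * f z) z = c * dz f z := by
  rw [dz_mul (differentiableAt_const c) hf, dz_const]
  ring

theorem dzb_const_mul (c : ℂ) (hf : DifferentiableAt ℝ f z) :
    dzb (fun z => c * f z) z = c * dzb f z := by
  rw [dzb_mul (differentiableAt_const c) hf, dzb_const]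
  ring

theorem dz_sum {ι : Type*} (s : Finset ι) {f : ι → ℂ → ℂ}
    (hf : ∀ i ∈ s, DifferentiableAt ℝ (f i) z) :
    dz (fun z => ∑ i ∈ s, f i z) z = ∑ i ∈ s, dz (f i) z := by
  simp only [dz, fderiv_fun_sum hf, sum_apply]
  rw [Finset.mul_sum, ← Finset.sum_sub_distrib, Finset.sum_div]

theorem dzb_sum {ι : Type*} (s : Finset ι) {f : ι → ℂ → ℂ}
    (hf : ∀ i ∈ s, DifferentiableAt ℝ (f i) z) :
    dzb (fun z => ∑ i ∈ s, f i z) z = ∑ i ∈ s, dzb (f i) z := by
  simp only [dzb, fderiv_fun_sum hf, sum_apply]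
  rw [Finset.mul_sum, ← Finset.sum_add_distrib, Finset.sum_div]

theorem fderiv_conj_apply (v : ℂ) : fderiv ℝ (fun z => conj (f z)) z v = conj (fderiv ℝ f z v) := by
  have h : (fun z => conj (f z)) = conjCLE ∘ f := by
    funext w
    simp
  rw [h, conjCLE.comp_fderiv]
  simp

theorem dz_conj : dz (fun z => conj (f z)) z = conj (dzb f z) := by
  simp only [dz, dzb, fderiv_conj_apply, map_div₀, map_add, map_mul, Complex.conj_I, conj_ofNat]
  ring

theorem dzb_conj : dzb (fun z => conj (f z)) z = conj (dz f z) := by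
  simp only [dz, dzb, fderiv_conj_apply, map_div₀, map_sub, map_mul, Complex.conj_I, conj_ofNat]
  ring

theorem dz_of_hol (h : DifferentiableAt ℂ f z) : dz f z = deriv f z := by
  have h1 : fderiv ℝ f z = (fderiv ℂ f z).restrictScalars ℝ := h.fderiv_restrictScalars ℝ
  have h2 : fderiv ℂ f z I = I * fderiv ℂ f z 1 := by
    rw [← smul_eq_mul, ← map_smul]
    simp
  simp only [dz, h1, ContinuousLinearMap.coe_restrictScalars', h2, fderiv_apply_one_eq_deriv]
  linear_combination (-(1 / 2 : ℂ) * deriv f z) * I_mul_I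

theorem dzb_of_hol (h : DifferentiableAt ℂ f z) : dzb f z = 0 := by
  have h1 : fderiv ℝ f z = (fderiv ℂ f z).restrictScalars ℝ := h.fderiv_restrictScalars ℝ
  have h2 : fderiv ℂ f z I = I * fderiv ℂ f z 1 := by
    rw [← smul_eq_mul, ← map_smul]
    simp
  simp only [dzb, h1, ContinuousLinearMap.coe_restrictScalars', h2, fderiv_apply_one_eq_deriv]
  linear_combination ((1 / 2 : ℂ) * deriv f z) * I_mul_I

/-- A real differentiable function with vanishing `∂̄` derivative is complex differentiable. -/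
theorem hol_of_dzb (hf : DifferentiableAt ℝ f z) (h : dzb f z = 0) : DifferentiableAt ℂ f z := by
  have h1 : fderiv ℝ f z I = I * fderiv ℝ f z 1 := by
    have h2 : fderiv ℝ f z 1 + I * fderiv ℝ f z I = 0 := by
      rw [dzb] at h
      linear_combination 2 * h
    linear_combination (-I) * h2 + (fderiv ℝ f z I) * I_mul_I
  have h2 : ∀ v : ℂ, fderiv ℝ f z v = v * fderiv ℝ f z 1 := by
    intro v
    have h3 : v = v.re • (1 : ℂ) + v.im • I := by
      simp [re_add_im]
    conv_lhs => rw [h3]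
    rw [map_add, map_smul, map_smul, h1, real_smul, real_smul]
    conv_rhs => rw [← re_add_im v]
    ring
  have h3 : HasDerivAt f (fderiv ℝ f z 1) z := by
    rw [hasDerivAt_iff_hasFDerivAt, hasFDerivAt_iff_isLittleO]
    have h4 := hasFDerivAt_iff_isLittleO.1 hf.hasFDerivAt
    refine h4.congr_left fun w => ?_
    rw [h2 (w - z)]
    simp
  exact h3.differentiableAt

end Basic

section Smooth

variable {f g : ℂ → ℂ} {z : ℂ} {m : ℕ∞ω}

theorem contDiffAt_fderiv_apply {n : ℕ∞ω} (hf : ContDiffAt ℝ n f z) (hmn : m + 1 ≤ n) (v : ℂ) :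
    ContDiffAt ℝ m (fun z => fderiv ℝ f z v) z :=
  (hf.fderiv_right hmn).clm_apply contDiffAt_const

theorem contDiffAt_dz {n : ℕ∞ω} (hf : ContDiffAt ℝ n f z) (hmn : m + 1 ≤ n) :
    ContDiffAt ℝ m (dz f) z := by
  have h : dz f = fun z => (fderiv ℝ f z 1 - I * fderiv ℝ f z I) / 2 := rfl
  rw [h]
  exact ((contDiffAt_fderiv_apply hf hmn 1).sub
    (contDiffAt_const.mul (contDiffAt_fderiv_apply hf hmn I))).div_const 2

theorem contDiffAt_dzb {n : ℕ∞ω} (hf : ContDiffAt ℝ n f z) (hmn : m + 1 ≤ n) :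
    ContDiffAt ℝ m (dzb f) z := by
  have h : dzb f = fun z => (fderiv ℝ f z 1 + I * fderiv ℝ f z I) / 2 := rfl
  rw [h]
  exact ((contDiffAt_fderiv_apply hf hmn 1).add
    (contDiffAt_const.mul (contDiffAt_fderiv_apply hf hmn I))).div_const 2

theorem contDiff_dz {n : ℕ∞ω} (hf : ContDiff ℝ n f) (hmn : m + 1 ≤ n) : ContDiff ℝ m (dz f) :=
  contDiff_iff_contDiffAt.2 fun _ => contDiffAt_dz hf.contDiffAt hmn

theorem contDiff_dzb {n : ℕ∞ω} (hf : ContDiff ℝ n f) (hmn : m + 1 ≤ n) : ContDiff ℝ m (dzb f) :=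
  contDiff_iff_contDiffAt.2 fun _ => contDiffAt_dzb hf.contDiffAt hmn

/-- `∂` and `∂̄` commute. -/
theorem dz_dzb_comm (hf : ContDiffAt ℝ 2 f z) : dz (dzb f) z = dzb (dz f) z := by
  have h1 : ContDiffAt ℝ 1 (fderiv ℝ f) z := hf.fderiv_right (by norm_num)
  have h2 : DifferentiableAt ℝ (fderiv ℝ f) z := h1.differentiableAt (by norm_num)
  have h3 : ∀ v w : ℂ, fderiv ℝ (fun z => fderiv ℝ f z v) z w = fderiv ℝ (fderiv ℝ f) z w v := by
    intro v w
    rw [fderiv_clm_apply h2 (differentiableAt_const v)]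
    simp
  have hs : ∀ v w : ℂ, fderiv ℝ (fderiv ℝ f) z v w = fderiv ℝ (fderiv ℝ f) z w v := by
    intro v w
    exact (hf.isSymmSndFDerivAt (by simp)) v w
  have d1 : ∀ v : ℂ, DifferentiableAt ℝ (fun z => fderiv ℝ f z v) z := fun v =>
    h2.clm_apply (differentiableAt_const v)
  have e1 : ∀ w, fderiv ℝ (dzb f) z w =
      (fderiv ℝ (fderiv ℝ f) z w 1 + I * fderiv ℝ (fderiv ℝ f) z w I) / 2 := by
    intro w
    have : dzb f = fun z => (2 : ℂ)⁻¹ * (fderiv ℝ f z 1 + I * fderiv ℝ f z I) := by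
      funext z
      rw [dzb]
      ring
    rw [this, fderiv_const_mul ((d1 1).fun_add ((d1 I).const_mul I)),
      fderiv_fun_add (d1 1) ((d1 I).const_mul I), fderiv_const_mul (d1 I)]
    simp only [smul_apply, add_apply, smul_eq_mul, h3]
    ring
  have e2 : ∀ w, fderiv ℝ (dz f) z w =
      (fderiv ℝ (fderiv ℝ f) z w 1 - I * fderiv ℝ (fderiv ℝ f) z w I) / 2 := by
    intro w
    have : dz f = fun z => (2 : ℂ)⁻¹ * (fderiv ℝ f z 1 - I * fderiv ℝ f z I) := by
      funext z
      rw [dz]
      ring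
    rw [this, fderiv_const_mul ((d1 1).fun_sub ((d1 I).const_mul I)),
      fderiv_fun_sub (d1 1) ((d1 I).const_mul I), fderiv_const_mul (d1 I)]
    simp only [smul_apply, sub_apply, smul_eq_mul, h3]
    ring
  rw [dz, dzb, e1, e1, e2, e2, hs I 1]
  ring

end Smooth

section Int

variable {f g : ℂ → ℂ}

theorem fderiv_hasCompactSupport (hf : HasCompactSupport f) (v : ℂ) :
    HasCompactSupport (fun z => fderiv ℝ f z v) :=
  (hf.fderiv ℝ).comp_left (g := fun T : ℂ →L[ℝ] ℂ => T v) (by simp)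

theorem hasCompactSupport_dz (hf : HasCompactSupport f) : HasCompactSupport (dz f) :=
  (hf.fderiv ℝ).comp_left (g := fun T : ℂ →L[ℝ] ℂ => (T 1 - I * T I) / 2) (by simp)

theorem hasCompactSupport_dzb (hf : HasCompactSupport f) : HasCompactSupport (dzb f) :=
  (hf.fderiv ℝ).comp_left (g := fun T : ℂ →L[ℝ] ℂ => (T 1 + I * T I) / 2) (by simp)

theorem integral_fderiv_eq_zero (hf : ContDiff ℝ 1 f) (hs : HasCompactSupport f) (v : ℂ) :
    ∫ z, fderiv ℝ f z v = 0 := by
  have hc : Continuous (fun z => fderiv ℝ f z v) :=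
    (hf.continuous_fderiv one_ne_zero).clm_apply continuous_const
  have h := integral_mul_fderiv_eq_neg_fderiv_mul_of_integrable (μ := (volume : Measure ℂ))
    (f := fun _ : ℂ => (1 : ℂ)) (g := f) (v := v) (by simp)
    (by simpa using hc.integrable_of_hasCompactSupport (fderiv_hasCompactSupport hs v))
    (by simpa using hf.continuous.integrable_of_hasCompactSupport hs)
    (fun _ _ => differentiableAt_const _) (fun x _ => hf.differentiable one_ne_zero x)
  simpa using h

theorem integrable_fderiv (hf : ContDiff ℝ 1 f) (hs : HasCompactSupport f) (v : ℂ) :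
    Integrable (fun z => fderiv ℝ f z v) :=
  ((hf.continuous_fderiv one_ne_zero).clm_apply continuous_const).integrable_of_hasCompactSupport
    (fderiv_hasCompactSupport hs v)

theorem integral_dz (hf : ContDiff ℝ 1 f) (hs : HasCompactSupport f) : ∫ z, dz f z = 0 := by
  have h1 := integrable_fderiv hf hs 1
  have h2 := (integrable_fderiv hf hs I).const_mul I
  simp only [dz]
  rw [integral_div, integral_sub h1 h2, integral_const_mul, integral_fderiv_eq_zero hf hs,
    integral_fderiv_eq_zero hf hs]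
  simp

theorem integral_dzb (hf : ContDiff ℝ 1 f) (hs : HasCompactSupport f) : ∫ z, dzb f z = 0 := by
  have h1 := integrable_fderiv hf hs 1
  have h2 := (integrable_fderiv hf hs I).const_mul I
  simp only [dzb]
  rw [integral_div, integral_add h1 h2, integral_const_mul, integral_fderiv_eq_zero hf hs,
    integral_fderiv_eq_zero hf hs]
  simp

theorem ibp_dz (hf : ContDiff ℝ 1 f) (hg : ContDiff ℝ 1 g) (hs : HasCompactSupport g) :
    ∫ z, f z * dz g z = - ∫ z, dz f z * g z := by
  have h1 : ∫ z, dz (fun z => f z * g z) z = 0 :=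
    integral_dz (hf.mul hg) hs.mul_left
  have h2 : ∀ z, dz (fun z => f z * g z) z = dz f z * g z + f z * dz g z := fun z =>
    dz_mul (hf.differentiable one_ne_zero z) (hg.differentiable one_ne_zero z)
  simp only [h2] at h1
  have c1 : Continuous (dz f) := (contDiff_dz (m := 0) hf (by norm_num)).continuous
  have c2 : Continuous (dz g) := (contDiff_dz (m := 0) hg (by norm_num)).continuous
  rw [integral_add] at h1
  · linear_combination h1
  · exact (c1.mul hg.continuous).integrable_of_hasCompactSupport hs.mul_left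
  · exact (hf.continuous.mul c2).integrable_of_hasCompactSupport (hasCompactSupport_dz hs).mul_left

theorem ibp_dzb (hf : ContDiff ℝ 1 f) (hg : ContDiff ℝ 1 g) (hs : HasCompactSupport g) :
    ∫ z, f z * dzb g z = - ∫ z, dzb f z * g z := by
  have h1 : ∫ z, dzb (fun z => f z * g z) z = 0 :=
    integral_dzb (hf.mul hg) hs.mul_left
  have h2 : ∀ z, dzb (fun z => f z * g z) z = dzb f z * g z + f z * dzb g z := fun z =>
    dzb_mul (hf.differentiable one_ne_zero z) (hg.differentiable one_ne_zero z)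
  simp only [h2] at h1
  have c1 : Continuous (dzb f) := (contDiff_dzb (m := 0) hf (by norm_num)).continuous
  have c2 : Continuous (dzb g) := (contDiff_dzb (m := 0) hg (by norm_num)).continuous
  rw [integral_add] at h1
  · linear_combination h1
  · exact (c1.mul hg.continuous).integrable_of_hasCompactSupport hs.mul_left
  · exact (hf.continuous.mul c2).integrable_of_hasCompactSupport (hasCompactSupport_dzb hs).mul_left

end Int

section Radial

/-- derivative of a radial function -/
theorem hasFDerivAt_radial {g : ℝ → ℝ} {g' : ℝ} {z : ℂ} (hg : HasDerivAt g g' (normSq z)) (v : ℂ) :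
    fderiv ℝ (fun z : ℂ => ((g (normSq z) : ℝ) : ℂ)) z v = ((g' * (2 * (z * conj v).re) : ℝ) : ℂ) := by
  have h1 : HasFDerivAt (fun z : ℂ => ‖z‖ ^ 2) (2 • (innerSL ℝ z)) z := by
    simpa using (hasStrictFDerivAt_norm_sq z).hasFDerivAt
  have h2 : (fun z : ℂ => normSq z) = fun z : ℂ => ‖z‖ ^ 2 := by
    funext w
    rw [Complex.normSq_eq_norm_sq]
  have h3 : HasFDerivAt (fun z : ℂ => normSq z) (2 • (innerSL ℝ z)) z := by
    rw [h2]
    exact h1
  have h4 : HasFDerivAt (fun z : ℂ => g (normSq z)) (g' • (2 • (innerSL ℝ z))) z :=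
    hg.comp_hasFDerivAt z h3
  have h5 := (ofRealCLM.hasFDerivAt (x := g (normSq z))).comp z h4
  have h6 : fderiv ℝ (fun z : ℂ => ((g (normSq z) : ℝ) : ℂ)) z = ofRealCLM.comp (g' • (2 • (innerSL ℝ z))) :=
    h5.fderiv
  rw [h6]
  simp only [ContinuousLinearMap.comp_apply, smul_apply, ofRealCLM_apply,
    innerSL_apply_apply, smul_eq_mul, Complex.inner]
  congr 1
  simp only [nsmul_eq_mul, Nat.cast_ofNat, mul_re, conj_re, conj_im]
  ring

theorem dzb_radial {g : ℝ → ℝ} {g' : ℝ} {z : ℂ} (hg : HasDerivAt g g' (normSq z)) :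
    dzb (fun z : ℂ => ((g (normSq z) : ℝ) : ℂ)) z = g' * z := by
  rw [dzb, hasFDerivAt_radial hg, hasFDerivAt_radial hg]
  apply Complex.ext <;> simp <;> ring

theorem dz_radial {g : ℝ → ℝ} {g' : ℝ} {z : ℂ} (hg : HasDerivAt g g' (normSq z)) :
    dz (fun z : ℂ => ((g (normSq z) : ℝ) : ℂ)) z = g' * conj z := by
  rw [dz, hasFDerivAt_radial hg, hasFDerivAt_radial hg]
  apply Complex.ext <;> simp <;> ring

theorem dz_id (z : ℂ) : dz (fun z => z) z = 1 := by
  have := dz_of_hol (f := fun z => z) (z := z) differentiableAt_id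
  rw [this]
  simp

theorem dzb_id (z : ℂ) : dzb (fun z => z) z = 0 :=
  dzb_of_hol (f := fun z => z) (z := z) differentiableAt_id

end Radial

end

end Vale.Agent.P298.H826
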